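import Vale.Agent.P091.H74.Spec

/-! P091, heart, T1: rounding of letters.  All letters live in `ZMod (2^m)`, `m = n + b`;
`ch m r i = e(r i / 2^m)`.  Rounding to level `j`: `rd m j r = r / 2^j` in `ZMod (2^(m-j))`,
embedding of the letters of level `j`: `em m j s = 2^j s`. -/

set_option autoImplicit false

open Finset

namespace Vale.Agent.P091.T.H522

open Vale.Agent.P091.Spec (e)

theorem e_add (s t : ℝ) : e (s + t) = e s * e t := by
  unfold e
  rw [← Complex.exp_add]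
  congr 1
  push_cast
  ring

theorem e_zero : e 0 = 1 := by simp [e]

theorem e_int (k : ℤ) : e (k : ℝ) = 1 := by
  unfold e
  have : (2 * (Real.pi : ℂ) * Complex.I * ((k : ℝ) : ℂ)) = (k : ℂ) * (2 * Real.pi * Complex.I) := by
    push_cast; ring
  rw [this, Complex.exp_int_mul_two_pi_mul_I]

theorem e_nat (k : ℕ) : e (k : ℝ) = 1 := by simpa using e_int (k : ℤ)

theorem norm_e (t : ℝ) : ‖e t‖ = 1 := by
  unfold e
  have : (2 * (Real.pi : ℂ) * Complex.I * (t : ℂ)) = ((2 * Real.pi * t : ℝ) : ℂ) * Complex.I := by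
    push_cast; ring
  rw [this, Complex.norm_exp_ofReal_mul_I]

theorem e_neg (t : ℝ) : e (-t) = (starRingEnd ℂ) (e t) := by
  unfold e
  rw [← Complex.exp_conj]
  congr 1
  simp only [map_mul, Complex.conj_I, Complex.conj_ofReal, map_ofNat, Complex.ofReal_neg]
  ring

theorem e_sub (s t : ℝ) : e (s - t) = e s * (starRingEnd ℂ) (e t) := by
  rw [sub_eq_add_neg, e_add, e_neg]

theorem norm_e_sub_one_le (t : ℝ) : ‖e t - 1‖ ≤ 2 * Real.pi * |t| := by
  unfold e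
  have : (2 * (Real.pi : ℂ) * Complex.I * (t : ℂ)) = Complex.I * ((2 * Real.pi * t : ℝ) : ℂ) := by
    push_cast; ring
  rw [this]
  refine (Real.norm_exp_I_mul_ofReal_sub_one_le (x := 2 * Real.pi * t)).trans ?_
  rw [Real.norm_eq_abs, abs_mul, abs_of_pos (by positivity : (0 : ℝ) < 2 * Real.pi)]

/-- the character `i ↦ e(r i / 2^m)` -/
noncomputable def ch (m : ℕ) (r : ZMod (2 ^ m)) (i : ℤ) : ℂ := e (r.val * i / 2 ^ m)

/-- it can be computed with any representative -/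
theorem ch_natCast (m : ℕ) (a : ℕ) (i : ℤ) : ch m (a : ZMod (2 ^ m)) i = e (a * i / 2 ^ m) := by
  unfold ch
  rw [ZMod.val_natCast]
  have h0 := Nat.mod_add_div a (2 ^ m)
  generalize a / 2 ^ m = q at h0
  generalize a % 2 ^ m = t at h0
  have h : (a : ℝ) = t + 2 ^ m * q := by exact_mod_cast h0.symm
  have h2 : (a : ℝ) * i / 2 ^ m = (t : ℝ) * i / 2 ^ m + (((q : ℤ) * i : ℤ) : ℝ) := by
    rw [h]; push_cast; field_simp
  rw [h2, e_add, e_int, mul_one]

theorem ch_add (m : ℕ) (r s : ZMod (2 ^ m)) (i : ℤ) : ch m (r + s) i = ch m r i * ch m s i := by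
  have h : r + s = ((r.val + s.val : ℕ) : ZMod (2 ^ m)) := by
    push_cast [ZMod.natCast_val, ZMod.cast_id', id]
    rfl
  rw [h, ch_natCast]
  unfold ch
  rw [← e_add]
  congr 1
  push_cast
  ring

theorem ch_zero (m : ℕ) (i : ℤ) : ch m 0 i = 1 := by
  simp [ch, e_zero]

theorem norm_ch (m : ℕ) (r : ZMod (2 ^ m)) (i : ℤ) : ‖ch m r i‖ = 1 := norm_e _

theorem ch_neg (m : ℕ) (r : ZMod (2 ^ m)) (i : ℤ) :
    ch m (-r) i = (starRingEnd ℂ) (ch m r i) := by
  have h : ch m (-r) i * ch m r i = 1 := by rw [← ch_add, neg_add_cancel, ch_zero]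
  have h2 : (starRingEnd ℂ) (ch m r i) * ch m r i = 1 := by
    rw [mul_comm, Complex.mul_conj, Complex.normSq_eq_norm_sq, norm_ch]; simp
  have h3 : ch m r i ≠ 0 := by
    intro h0
    rw [h0, mul_zero] at h
    exact zero_ne_one h
  exact mul_right_cancel₀ h3 (h.trans h2.symm)

theorem ch_add_right (m : ℕ) (r : ZMod (2 ^ m)) (i j : ℤ) :
    ch m r (i + j) = ch m r i * ch m r j := by
  unfold ch
  rw [← e_add]
  congr 1
  push_cast
  ring

/-- rounding to level `j` -/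
def rd (m j : ℕ) (r : ZMod (2 ^ m)) : ZMod (2 ^ (m - j)) := ((r.val / 2 ^ j : ℕ) : ZMod (2 ^ (m - j)))

/-- embedding of the letters of level `j` -/
def em (m j : ℕ) (s : ZMod (2 ^ (m - j))) : ZMod (2 ^ m) := ((2 ^ j * s.val : ℕ) : ZMod (2 ^ m))

theorem two_pow_split {m j : ℕ} (h : j ≤ m) : 2 ^ j * 2 ^ (m - j) = 2 ^ m := by
  rw [← pow_add, Nat.add_sub_cancel' h]

theorem em_natCast {m j : ℕ} (h : j ≤ m) (a : ℕ) :
    em m j (a : ZMod (2 ^ (m - j))) = ((2 ^ j * a : ℕ) : ZMod (2 ^ m)) := by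
  unfold em
  rw [ZMod.val_natCast, ZMod.natCast_eq_natCast_iff]
  unfold Nat.ModEq
  rw [← two_pow_split h, ← Nat.mul_mod_mul_left, Nat.mod_mod_of_dvd _ (dvd_refl _)]

theorem em_add {m j : ℕ} (h : j ≤ m) (s t : ZMod (2 ^ (m - j))) :
    em m j (s + t) = em m j s + em m j t := by
  have h1 : s + t = ((s.val + t.val : ℕ) : ZMod (2 ^ (m - j))) := by
    push_cast [ZMod.natCast_val, ZMod.cast_id', id]
    rfl
  rw [h1, em_natCast h]
  unfold em
  push_cast
  ring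

theorem em_zero (m j : ℕ) : em m j 0 = 0 := by simp [em]

theorem ch_em {m j : ℕ} (h : j ≤ m) (s : ZMod (2 ^ (m - j))) (i : ℤ) :
    ch m (em m j s) i = ch (m - j) s i := by
  unfold em
  rw [ch_natCast]
  unfold ch
  congr 1
  have h1 : (2 : ℝ) ^ m = 2 ^ j * 2 ^ (m - j) := by
    rw [← pow_add, Nat.add_sub_cancel' h]
  rw [h1]
  push_cast
  field_simp

theorem rd_natCast {m j : ℕ} (h : j ≤ m) (a : ℕ) :
    rd m j (a : ZMod (2 ^ m)) = ((a / 2 ^ j : ℕ) : ZMod (2 ^ (m - j))) := by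
  unfold rd
  rw [ZMod.val_natCast, ZMod.natCast_eq_natCast_iff]
  unfold Nat.ModEq
  have h2 : a % 2 ^ m / 2 ^ j = (a / 2 ^ j) % 2 ^ (m - j) := by
    rw [← two_pow_split h, Nat.mod_mul_right_div_self]
  rw [h2, Nat.mod_mod_of_dvd _ (dvd_refl _)]

/-- no carry: `(r + 2^j s) / 2^j = r / 2^j + s` -/
theorem rd_add_em {m j : ℕ} (h : j ≤ m) (r : ZMod (2 ^ m)) (s : ZMod (2 ^ (m - j))) :
    rd m j (r + em m j s) = rd m j r + s := by
  have h1 : r + em m j s = ((r.val + 2 ^ j * s.val : ℕ) : ZMod (2 ^ m)) := by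
    unfold em
    push_cast [ZMod.natCast_val, ZMod.cast_id', id]
    ring
  rw [h1, rd_natCast h, Nat.add_mul_div_left _ _ (by positivity)]
  unfold rd
  push_cast [ZMod.natCast_val, ZMod.cast_id', id]
  ring

theorem rd_em {m j : ℕ} (h : j ≤ m) (s : ZMod (2 ^ (m - j))) : rd m j (em m j s) = s := by
  have := rd_add_em h 0 s
  rw [zero_add] at this
  rw [this]
  simp [rd]

theorem em_inj {m j : ℕ} (h : j ≤ m) : Function.Injective (em m j) := fun s t hst => by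
  rw [← rd_em h s, ← rd_em h t, hst]

/-- the remainder of the rounding, `0 ≤ lo < 2^j` -/
def lo (m j : ℕ) (r : ZMod (2 ^ m)) : ℕ := r.val % 2 ^ j

theorem lo_lt (m j : ℕ) (r : ZMod (2 ^ m)) : lo m j r < 2 ^ j := Nat.mod_lt _ (by positivity)

theorem eq_em_add_lo {m j : ℕ} (h : j ≤ m) (r : ZMod (2 ^ m)) :
    r = em m j (rd m j r) + (lo m j r : ZMod (2 ^ m)) := by
  unfold rd lo
  rw [em_natCast h]
  have h1 : 2 ^ j * (r.val / 2 ^ j) + r.val % 2 ^ j = r.val := Nat.div_add_mod _ _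
  rw [← Nat.cast_add, h1, ZMod.natCast_val, ZMod.cast_id', id]

/-- `e(r i / 2^m) = e((r/2^j) i / 2^(m-j)) e(lo i / 2^m)` -/
theorem ch_rd {m j : ℕ} (h : j ≤ m) (r : ZMod (2 ^ m)) (i : ℤ) :
    ch m r i = ch (m - j) (rd m j r) i * e (lo m j r * i / 2 ^ m) := by
  conv_lhs => rw [eq_em_add_lo h r]
  rw [ch_add, ch_em h, ch_natCast]

/-- rounding a sum: the carry is `0` or `1` -/
theorem rd_add {m j : ℕ} (h : j ≤ m) (r s : ZMod (2 ^ m)) :
    rd m j (r + s) = rd m j r + rd m j s + (((lo m j r + lo m j s) / 2 ^ j : ℕ) : ZMod (2 ^ (m - j)))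
      ∧ (lo m j r + lo m j s) / 2 ^ j ≤ 1 := by
  constructor
  · have h1 : r + s = ((2 ^ j * (r.val / 2 ^ j) + r.val % 2 ^ j
        + (2 ^ j * (s.val / 2 ^ j) + s.val % 2 ^ j) : ℕ) : ZMod (2 ^ m)) := by
      rw [Nat.div_add_mod, Nat.div_add_mod]
      push_cast [ZMod.natCast_val, ZMod.cast_id', id]
      rfl
    have h2 : 2 ^ j * (r.val / 2 ^ j) + r.val % 2 ^ j + (2 ^ j * (s.val / 2 ^ j) + s.val % 2 ^ j)
        = r.val % 2 ^ j + s.val % 2 ^ j + 2 ^ j * (r.val / 2 ^ j + s.val / 2 ^ j) := by ring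
    rw [h1, h2, rd_natCast h, Nat.add_mul_div_left _ _ (by positivity)]
    unfold rd lo
    push_cast
    ring
  · have h1 := lo_lt m j r
    have h2 := lo_lt m j s
    have : (lo m j r + lo m j s) / 2 ^ j < 2 := by
      rw [Nat.div_lt_iff_lt_mul (by positivity)]
      omega
    omega

/-- size of the slow phase on a node of level `j` -/
theorem lo_small {n b j : ℕ} (hj : j ≤ n) (r : ZMod (2 ^ (n + b))) (i i' : ℤ)
    (h : |(i : ℝ) - i'| ≤ 2 ^ (n - j)) :
    |(lo (n + b) j r : ℝ) * (i - i') / 2 ^ (n + b)| ≤ 1 / 2 ^ b := by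
  have h1 : (lo (n + b) j r : ℝ) ≤ 2 ^ j := by exact_mod_cast (lo_lt (n + b) j r).le
  rw [abs_div, abs_mul, abs_of_nonneg (Nat.cast_nonneg _),
    abs_of_pos (by positivity : (0 : ℝ) < 2 ^ (n + b))]
  rw [div_le_div_iff₀ (by positivity) (by positivity), one_mul]
  have h2 : (2 : ℝ) ^ (n + b) = 2 ^ j * 2 ^ (n - j) * 2 ^ b := by
    rw [← pow_add, Nat.add_sub_cancel' hj, ← pow_add]
  rw [h2]
  have h3 : (lo (n + b) j r : ℝ) * |(i : ℝ) - i'| ≤ 2 ^ j * 2 ^ (n - j) :=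
    mul_le_mul h1 h (abs_nonneg _) (by positivity)
  exact mul_le_mul_of_nonneg_right h3 (by positivity)

end Vale.Agent.P091.T.H522
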