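import Vale.Agent.P091.T.H522.Cut
import Vale.Agent.P091.AD.H813.Main

/-! P091, heart, row CUT, without hypotheses. -/

set_option autoImplicit false

namespace Vale.Agent.P091.T.H522

/-- **row CUT** -/
theorem p_cut : T.P_CUT := cut_of AD.adplus

end Vale.Agent.P091.T.H522
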