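import Vale.Agent.P091.T.H522.Cut2
import Vale.Agent.P091.T.Props

/-! P091, heart, row CUT: one extraction, from the frozen statement `ADplus`. -/

set_option autoImplicit false

open Finset Real
open Vale.Agent.P065.Ent
open Vale.Agent.P091.AD.H356
open Vale.Agent.P091.AD hiding av
open Vale.Agent.P091.Spec

noncomputable section

namespace Vale.Agent.P091.T.H522

theorem sum_alp_ge {C1 D : ℝ} {n b : ℕ} {ι : Type} [Fintype ι] (d : T.ZData C1 D n b ι)
    (j a : ℕ) (S : ι → Prop) [DecidablePred S]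
    (A : Finset (AddChar (ZMod (2 ^ (n + b - j))) ℂ))
    (hA : ∀ k, S k → Phi (n + b - j) (T.rd n b j (d.r k)) ∈ A) :
    ∑ k, (if S k then av n j a (d.a k) else 0) ≤ ∑ χ ∈ A, alp d j a χ := by
  classical
  unfold alp
  rw [sum_comm]
  refine sum_le_sum fun k _ => ?_
  rw [sum_ite_eq]
  by_cases h : S k
  · rw [if_pos h, if_pos (hA k h)]
  · rw [if_neg h]
    split_ifs
    · exact av_nonneg d j a k
    · exact le_rfl

/-- **row CUT** -/
theorem cut_of (hAD : ADplus) : T.P_CUT := by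
  classical
  obtain ⟨c0, C, K1, R0, hc0, hC, hK1, hR0, hU⟩ := unit_half hAD
  refine ⟨c0 / 2, 1 / 8, by linarith, by norm_num, fun A C1 hA hC1 => ?_⟩
  obtain ⟨D0, hD0⟩ := cut_num c0 C K1 R0 A C1 hc0 hC hK1 hA hC1
  refine ⟨D0, ?_⟩
  intro D n ι _ d J j a Z s hD hj ha hZ hJ hav hs1 hs2 hub
  obtain ⟨n1, n2, n3, n4, n5, n6, n7⟩ := hD0 D hD
  obtain ⟨m1, m2, m3⟩ := n5 s hs1 hs2
  have hDpos : 0 < D := by linarith
  have hjm : j ≤ n + T.bb D := by omega
  have hσ0 : (0 : ℝ) < (1 / 2 : ℝ) ^ (s + 1) := by positivity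
  -- the weight
  have hq0 : ∀ i, 0 ≤ T.cut d.p Z i := by
    intro i
    unfold T.cut
    split_ifs
    · exact d.p_nonneg i
    · exact le_rfl
  have hqB : ∀ i, T.cut d.p Z i ≤ exp D := by
    intro i
    unfold T.cut
    split_ifs
    · exact d.p_le i
    · exact (exp_pos D).le
  have hL : (0 : ℝ) < 2 ^ (n - j) := by positivity
  have hQav : ∑ i ∈ nd n j a, T.cut d.p Z i = 2 ^ (n - j) * av n j a (T.cut d.p Z) := by
    unfold av
    field_simp
  have hav0 : 0 < av n j a (T.cut d.p Z) := (exp_pos _).trans_le hav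
  have hQ : 0 < ∑ i ∈ nd n j a, T.cut d.p Z i := by
    rw [hQav]; positivity
  have hM : 2 ^ (n - j) ≤ 2 ^ (n + T.bb D - j) := Nat.pow_le_pow_right (by norm_num) (by omega)
  have hμ : IsProb (nlaw n j a (n + T.bb D - j) (T.cut d.p Z)) := nlaw_isProb hq0 hQ
  have hdens : ∀ y, (Fintype.card (ZMod (2 ^ (n + T.bb D - j))) : ℝ)
      * nlaw n j a (n + T.bb D - j) (T.cut d.p Z) y ≤ exp (3 * D) := by
    intro y
    have h1 := nlaw_le hM hqB (exp_pos D).le hQ y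
    rw [ZMod.card]
    have h2 : ((2 ^ (n + T.bb D - j) : ℕ) : ℝ) = 2 ^ (n - j) * 2 ^ (T.bb D) := by
      push_cast
      rw [← pow_add]
      congr 1
      omega
    rw [h2]
    calc (2 : ℝ) ^ (n - j) * 2 ^ (T.bb D) * nlaw n j a (n + T.bb D - j) (T.cut d.p Z) y
        ≤ 2 ^ (n - j) * 2 ^ (T.bb D) * (exp D / (2 ^ (n - j) * exp (-D))) := by
          refine mul_le_mul_of_nonneg_left (h1.trans ?_) (by positivity)
          rw [hQav]
          refine div_le_div_of_nonneg_left (exp_pos D).le (by positivity) ?_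
          exact mul_le_mul_of_nonneg_left hav hL.le
      _ = 2 ^ (T.bb D) * (exp D * exp D) := by
          rw [exp_neg]
          have := (exp_pos D).ne'
          field_simp
      _ ≤ exp D * (exp D * exp D) := mul_le_mul_of_nonneg_right n3 (by positivity)
      _ = exp (3 * D) := by
          rw [← exp_add, ← exp_add]
          congr 1
          ring
  -- the population
  set A0 : Finset (AddChar (ZMod (2 ^ (n + T.bb D - j))) ℂ) :=
    (univ.filter fun k => T.Unx d J (T.th A D s) j a k ∧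
      T.Bia d (T.cut d.p Z) ((1 / 2 : ℝ) ^ s) j a k).image
      fun k => Phi (n + T.bb D - j) (T.rd n (T.bb D) j (d.r k)) with hA0
  have hbias : ∀ χ ∈ A0, (1 / 2 : ℝ) ^ (s + 1)
      ≤ ‖∑ y, (nlaw n j a (n + T.bb D - j) (T.cut d.p Z) y : ℂ) * χ y‖ := by
    intro χ hχ
    rw [hA0, mem_image] at hχ
    obtain ⟨k, hk, rfl⟩ := hχ
    rw [mem_filter] at hk
    have h1 : (1 / 2 : ℝ) ^ s * av n j a (T.cut d.p Z)
        ≤ ‖T.BZ n (T.bb D) (T.cut d.p Z) (d.r k) j a‖ := hk.2.2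
    rw [norm_BZ, le_div_iff₀ hL] at h1
    have h2 := bias_rd (b := T.bb D) (a := a) hj hq0 (d.r k)
    rw [nlaw_sumC, norm_div, Complex.norm_real, Real.norm_of_nonneg hQ.le, le_div_iff₀ hQ]
    have h3 : ∀ i ∈ nd n j a, ((T.cut d.p Z i : ℝ) : ℂ)
        * Phi (n + T.bb D - j) (T.rd n (T.bb D) j (d.r k)) (i : ZMod (2 ^ (n + T.bb D - j)))
        = ((T.cut d.p Z i : ℝ) : ℂ)
          * ch (n + T.bb D - j) (rd (n + T.bb D) j (d.r k)) (i : ℤ) := by
      intro i _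
      rw [Phi_apply, ← std_eq, Int.cast_natCast]
      rfl
    rw [sum_congr rfl h3]
    have h4 : (1 / 2 : ℝ) ^ s * av n j a (T.cut d.p Z) * 2 ^ (n - j)
        = (1 / 2 : ℝ) ^ s * ∑ i ∈ nd n j a, T.cut d.p Z i := by
      rw [hQav]; ring
    rw [h4] at h1
    have h5 : 2 * π / 2 ^ (T.bb D) * ∑ i ∈ nd n j a, T.cut d.p Z i
        ≤ (1 / 2 : ℝ) ^ (s + 1) * ∑ i ∈ nd n j a, T.cut d.p Z i :=
      mul_le_mul_of_nonneg_right m3 hQ.le
    have h6 : (1 / 2 : ℝ) ^ s = (1 / 2 : ℝ) ^ (s + 1) + (1 / 2 : ℝ) ^ (s + 1) := by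
      rw [pow_succ]; ring
    rw [h6, add_mul] at h1
    linarith
  have hJ' := lawR_isProb J hJ
  have hθR : T.th A D s / (3 * D) * (3 * D) = T.th A D s := by field_simp
  have hunex : ∀ χ ∈ A0, Unexpl2 (T.lawR J)
      (fun r => Phi (n + T.bb D - j) (T.rd n (T.bb D) j r)) (alp d j a)
      (T.th A D s / (3 * D) * (3 * D)) χ := by
    intro χ hχ
    rw [hθR]
    rw [hA0, mem_image] at hχ
    obtain ⟨k, hk, rfl⟩ := hχ
    rw [mem_filter] at hk
    exact unex d hJ' hk.2.1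
  have hmass : exp (-(T.th A D s / (3 * D) * (3 * D) / 2)) ≤ ∑ χ ∈ A0, alp d j a χ := by
    rw [hθR]
    refine hub.le.trans ?_
    refine le_trans (le_of_eq ?_) (sum_alp_ge d j a (fun k => T.Unx d J (T.th A D s) j a k ∧
      T.Bia d (T.cut d.p Z) ((1 / 2 : ℝ) ^ s) j a k) A0 fun k hk => ?_)
    · rfl
    · rw [hA0]
      exact mem_image_of_mem _ (mem_filter.mpr ⟨mem_univ k, hk⟩)
  obtain ⟨A', lam, y0, ρ, hA', hcard, hu, hg⟩ := hU (ZMod (2 ^ (n + T.bb D - j))) A0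
    (nlaw n j a (n + T.bb D - j) (T.cut d.p Z)) ((1 / 2 : ℝ) ^ (s + 1)) (3 * D)
    (T.th A D s / (3 * D)) (ZMod (2 ^ (n + T.bb D))) (T.lawR J)
    (fun r => Phi (n + T.bb D - j) (T.rd n (T.bb D) j r)) (alp d j a) n2 m1 m2 hμ hdens hbias
    hJ' (alp_nonneg d j a) hunex hmass
  set Y' : Finset ℕ := Z.filter fun i =>
    ((1 / 2 : ℝ) ^ (s + 1)) ^ 4 / 4 ≤ lam.m ((i : ZMod (2 ^ (n + T.bb D - j))) - y0) with hY'
  refine ⟨mkUn lam ρ, Y', filter_subset _ _, ?_, ?_, ?_⟩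
  · refine mkUn_ok hjm hu hcard (by linarith) n7 n6 fun i hi => ?_
    rw [hY', mem_filter] at hi
    exact hi.2
  · have h1 := hu.event
    have h2 : ∑ y, (if ((1 / 2 : ℝ) ^ (s + 1)) ^ 4 / 4 ≤ lam.m (y - y0)
        then nlaw n j a (n + T.bb D - j) (T.cut d.p Z) y else 0)
        = (∑ i ∈ nd n j a, T.cut d.p Y' i) / ∑ i ∈ nd n j a, T.cut d.p Z i := by
      have h3 := nlaw_sum n j a (n + T.bb D - j) (T.cut d.p Z)
        (fun y => if ((1 / 2 : ℝ) ^ (s + 1)) ^ 4 / 4 ≤ lam.m (y - y0) then 1 else 0)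
      simp only [mul_ite, mul_one, mul_zero] at h3
      refine h3.trans ?_
      congr 1
      refine sum_congr rfl fun i _ => ?_
      have hiff : i ∈ Y' ↔ (i ∈ Z ∧ ((1 / 2 : ℝ) ^ (s + 1)) ^ 4 / 4
          ≤ lam.m ((i : ZMod (2 ^ (n + T.bb D - j))) - y0)) := by
        rw [hY', mem_filter]
      unfold T.cut
      by_cases e1 : i ∈ Z
      · by_cases e2 : ((1 / 2 : ℝ) ^ (s + 1)) ^ 4 / 4
          ≤ lam.m ((i : ZMod (2 ^ (n + T.bb D - j))) - y0)
        · rw [if_pos e2, if_pos e1, if_pos (hiff.mpr ⟨e1, e2⟩)]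
        · have e3 : i ∉ Y' := fun h => e2 (hiff.mp h).2
          rw [if_neg e2, if_neg e3]
      · have e3 : i ∉ Y' := fun h => e1 (hiff.mp h).1
        rw [if_neg e1, if_neg e3]
        split_ifs <;> rfl
    have h4 : ((1 / 2 : ℝ) ^ (s + 1)) ^ 2 / 2 = 1 / 8 * (1 / 4 : ℝ) ^ s := by
      have : (1 / 4 : ℝ) = (1 / 2 : ℝ) ^ 2 := by norm_num
      rw [this, ← pow_mul, ← pow_mul]
      rw [show (s + 1) * 2 = 2 * s + 2 by ring, pow_add]
      ring
    have h5 : 1 / 8 * (1 / 4 : ℝ) ^ s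
        ≤ (∑ i ∈ nd n j a, T.cut d.p Y' i) / ∑ i ∈ nd n j a, T.cut d.p Z i := by
      rw [← h4, ← h2]
      exact h1
    rw [le_div_iff₀ hQ] at h5
    have h6 : av n j a (T.cut d.p Y') = (∑ i ∈ nd n j a, T.cut d.p Y' i) / 2 ^ (n - j) := rfl
    rw [h6, le_div_iff₀ hL]
    rw [hQav] at h5
    linarith
  · rw [hθR] at hg
    exact growth_F hjm J lam (mkUn lam ρ) rfl _ hg

end Vale.Agent.P091.T.H522
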