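import Vale.Agent.P091.T.Defs

/-! P091, heart, row CUT: numerical facts. -/

set_option autoImplicit false

open Real Filter

noncomputable section

namespace Vale.Agent.P091.T.H522

theorem ll_le {D : ℝ} (h : 1 ≤ Real.log (Real.log D)) :
    1 ≤ (ll D : ℝ) ∧ (ll D : ℝ) ≤ 5 * Real.log (Real.log D) := by
  have hl2 := Real.log_two_gt_d9
  have hx : 0 ≤ 2 * Real.logb 2 (Real.log D) := by
    have : 0 ≤ Real.logb 2 (Real.log D) := by
      unfold Real.logb
      exact div_nonneg (by linarith) (by linarith)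
    linarith
  unfold ll
  push_cast
  constructor
  · have : (0 : ℝ) ≤ (⌈2 * Real.logb 2 (Real.log D)⌉₊ : ℝ) := Nat.cast_nonneg _
    linarith
  · have h1 := (Nat.ceil_lt_add_one hx).le
    have h2 : 2 * Real.logb 2 (Real.log D) ≤ 3 * Real.log (Real.log D) := by
      unfold Real.logb
      rw [mul_div_assoc', div_le_iff₀ (by linarith)]
      nlinarith
    linarith

theorem sm_le {A C1 D : ℝ} (hA : 1 ≤ A) (hC1 : 0 ≤ C1) (hl : 1 ≤ (ll D : ℝ)) :
    (2 : ℝ) ^ (sm A C1 D + 1) ≤ 8 * ((C1 + 1) * ll D) ^ 4 := by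
  have hX : 1 ≤ (C1 + 1) * (ll D : ℝ) := by nlinarith
  have h0 : 0 ≤ Real.logb 2 ((C1 + 1) * (ll D : ℝ)) :=
    Real.logb_nonneg (by norm_num) hX
  have h1 : Real.logb 2 ((C1 + 1) * ll D / A) ≤ Real.logb 2 ((C1 + 1) * ll D) := by
    refine Real.logb_le_logb_of_le (by norm_num) (by positivity) ?_
    rw [div_le_iff₀ (by linarith)]
    nlinarith
  have h2 : (sm A C1 D : ℝ) ≤ 4 * Real.logb 2 ((C1 + 1) * ll D) + 2 := by
    unfold sm
    push_cast
    have h3 : (⌈4 * Real.logb 2 ((C1 + 1) * ll D / A)⌉₊ : ℝ)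
        ≤ (⌈4 * Real.logb 2 ((C1 + 1) * ll D)⌉₊ : ℝ) := by
      exact_mod_cast Nat.ceil_mono (by linarith)
    have h4 := (Nat.ceil_lt_add_one (show (0 : ℝ) ≤ 4 * Real.logb 2 ((C1 + 1) * ll D) by
      linarith)).le
    linarith
  have h5 : ((2 : ℝ) ^ (sm A C1 D + 1)) = (2 : ℝ) ^ ((sm A C1 D : ℝ) + 1) := by
    rw [← Real.rpow_natCast]
    push_cast
    rfl
  rw [h5]
  calc (2 : ℝ) ^ ((sm A C1 D : ℝ) + 1)
      ≤ (2 : ℝ) ^ (4 * Real.logb 2 ((C1 + 1) * ll D) + 3) :=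
        Real.rpow_le_rpow_of_exponent_le (by norm_num) (by linarith)
    _ = 8 * ((C1 + 1) * ll D) ^ 4 := by
        rw [Real.rpow_add (by norm_num), mul_comm (4 : ℝ), Real.rpow_mul (by norm_num),
          Real.rpow_logb (by norm_num) (by norm_num) (by linarith)]
        norm_num
        ring

theorem bb_bounds {D : ℝ} (h : 1 ≤ D) :
    D ^ 4 ≤ (2 : ℝ) ^ (bb D) ∧ (2 : ℝ) ^ (bb D) ≤ 2 * D ^ 4 := by
  have h0 : 0 ≤ Real.logb 2 D := Real.logb_nonneg (by norm_num) h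
  have hD : 0 < D := by linarith
  have h1 : (2 : ℝ) ^ (4 * Real.logb 2 D) = D ^ 4 := by
    rw [mul_comm (4 : ℝ), Real.rpow_mul (by norm_num),
      Real.rpow_logb (by norm_num) (by norm_num) hD]
    norm_num
  have h2 : (2 : ℝ) ^ (bb D) = (2 : ℝ) ^ ((bb D : ℕ) : ℝ) := by rw [Real.rpow_natCast]
  rw [h2]
  constructor
  · rw [← h1]
    exact Real.rpow_le_rpow_of_exponent_le (by norm_num) (Nat.le_ceil _)
  · have h3 := (Nat.ceil_lt_add_one (show (0 : ℝ) ≤ 4 * Real.logb 2 D by linarith)).le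
    calc (2 : ℝ) ^ ((bb D : ℕ) : ℝ) ≤ (2 : ℝ) ^ (4 * Real.logb 2 D + 1) :=
          Real.rpow_le_rpow_of_exponent_le (by norm_num) h3
      _ = 2 * D ^ 4 := by
          rw [Real.rpow_add (by norm_num), h1]
          norm_num
          ring

/-- all the numerical facts used in `CUT` -/
theorem cut_num (c0 C K1 R0 A C1 : ℝ) (hc0 : 0 < c0) (hC : 0 < C) (hK1 : 0 < K1) (hA : 1 ≤ A)
    (hC1 : 0 ≤ C1) : ∃ D0 : ℝ, ∀ D, D0 ≤ D →
    3 ≤ D ∧ R0 ≤ 3 * D ∧ (2 : ℝ) ^ (bb D) ≤ exp D ∧ 1 ≤ (ll D : ℝ) ∧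
    (∀ s : ℕ, 1 ≤ s → s ≤ sm A C1 D → (log (3 * D)) ^ (-c0) ≤ (1 / 2 : ℝ) ^ (s + 1) ∧
      K1 * (log (3 * D)) ^ (-c0) ≤ th A D s / (3 * D) ∧
      2 * π / 2 ^ (bb D) ≤ (1 / 2 : ℝ) ^ (s + 1)) ∧
    C * (log (3 * D)) ^ (-c0) * (3 * D) ≤ ep (c0 / 2) D * D ∧
    2 * (C * (log (3 * D)) ^ (-c0)) ≤ ep (c0 / 2) D := by
  have hll : Tendsto (fun D : ℝ => log (log D)) atTop atTop :=
    tendsto_log_atTop.comp tendsto_log_atTop
  have t1 : ∀ᶠ D : ℝ in atTop, 1 ≤ log (log D) := hll.eventually_ge_atTop 1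
  -- powers of `log log D` against powers of `log D`
  have tp : ∀ (K γ : ℝ), 0 < K → 0 < γ → ∀ᶠ D : ℝ in atTop, K * (log (log D)) ^ 4
      ≤ (log D) ^ γ := by
    intro K γ hK hγ
    have h1 : ∀ᶠ L : ℝ in atTop, K * (log L) ^ 4 ≤ L ^ γ := by
      have := (isLittleO_log_rpow_rpow_atTop (4 : ℝ) hγ).bound (show (0 : ℝ) < 1 / K by positivity)
      filter_upwards [this, eventually_gt_atTop 1] with L hL hL1
      rw [Real.norm_of_nonneg (rpow_nonneg (log_nonneg hL1.le) _),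
        Real.norm_of_nonneg (rpow_nonneg (by linarith) _)] at hL
      have h2 : (log L) ^ (4 : ℝ) = (log L) ^ 4 := by
        rw [show (4 : ℝ) = ((4 : ℕ) : ℝ) by norm_num, rpow_natCast]
      rw [h2] at hL
      calc K * (log L) ^ 4 ≤ K * (1 / K * L ^ γ) := mul_le_mul_of_nonneg_left hL hK.le
        _ = L ^ γ := by field_simp
    exact tendsto_log_atTop.eventually h1
  have t2 := tp (8 * ((C1 + 1) * 5) ^ 4) c0 (by positivity) hc0
  have t3 := tp (8 * ((C1 + 1) * 5) ^ 4) 1 (by positivity) one_pos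
  have t4 := tp (K1 * 3 * 5) c0 (by positivity) hc0
  have t5 : ∀ᶠ D : ℝ in atTop, 3 * C + 2 * C ≤ (log D) ^ (c0 / 2) :=
    ((tendsto_rpow_atTop (by positivity)).comp tendsto_log_atTop).eventually_ge_atTop _
  have t6 : ∀ᶠ D : ℝ in atTop, 2 * D ^ 4 ≤ exp D := by
    have := (isLittleO_pow_exp_atTop (n := 4)).bound (show (0 : ℝ) < 1 / 2 by norm_num)
    filter_upwards [this, eventually_gt_atTop 0] with D hD hD0
    rw [Real.norm_of_nonneg (by positivity), Real.norm_of_nonneg (exp_pos D).le] at hD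
    linarith
  have t7 : ∀ᶠ D : ℝ in atTop, (max R0 0 + 10) ≤ D := eventually_ge_atTop _
  obtain ⟨D0, hD0⟩ := (t1.and (t2.and (t3.and (t4.and (t5.and (t6.and t7)))))).exists_forall_of_atTop
  refine ⟨D0, fun D hD => ?_⟩
  obtain ⟨e1, e2, e3, e4, e5, e6, e7⟩ := hD0 D hD
  have hm1 := le_max_left R0 0
  have hm2 := le_max_right R0 0
  have hD10 : 10 ≤ D := by linarith
  obtain ⟨l1, l2⟩ := ll_le e1
  have hb := bb_bounds (show (1 : ℝ) ≤ D by linarith)
  have hlogD : 0 < log D := log_pos (by linarith)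
  have hlog1 : 1 ≤ log D := by
    by_contra h
    push Not at h
    have := log_neg hlogD h
    linarith
  have hlog3 : log D ≤ log (3 * D) := log_le_log (by linarith) (by linarith)
  have hlog3' : 0 < log (3 * D) := by linarith
  have hr0 : (log (3 * D)) ^ (-c0) ≤ (log D) ^ (-c0) :=
    rpow_le_rpow_of_nonpos hlogD hlog3 (by linarith)
  have hr1 : 0 < (log D) ^ (-c0) := rpow_pos_of_pos hlogD _
  have hlogle : log D ≤ D := by
    have := log_le_sub_one_of_pos (show (0 : ℝ) < D by linarith)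
    linarith
  have hLL : log (log D) ≤ (log (log D)) ^ 4 := le_self_pow₀ e1 (by norm_num)
  refine ⟨by linarith, by linarith, hb.2.trans e6, l1, fun s hs1 hs2 => ?_, ?_, ?_⟩
  · have hs : (2 : ℝ) ^ (s + 1) ≤ 8 * ((C1 + 1) * 5) ^ 4 * (log (log D)) ^ 4 := by
      calc (2 : ℝ) ^ (s + 1) ≤ (2 : ℝ) ^ (sm A C1 D + 1) :=
            pow_le_pow_right₀ (by norm_num) (by omega)
        _ ≤ 8 * ((C1 + 1) * ll D) ^ 4 := sm_le hA hC1 l1
        _ ≤ 8 * ((C1 + 1) * (5 * log (log D))) ^ 4 := by gcongr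
        _ = _ := by ring
    have hs' : (1 / 2 : ℝ) ^ (s + 1) = ((2 : ℝ) ^ (s + 1))⁻¹ := by
      rw [one_div, inv_pow]
    refine ⟨?_, ?_, ?_⟩
    · rw [hs']
      refine hr0.trans ?_
      rw [rpow_neg hlogD.le]
      exact inv_anti₀ (by positivity) (hs.trans e2)
    · have h1 : 1 / (3 * (5 * log (log D))) ≤ th A D s / (3 * D) := by
        unfold th
        have h2 : 1 ≤ A * (2 : ℝ) ^ ((s : ℝ) / 4) := by
          have : 1 ≤ (2 : ℝ) ^ ((s : ℝ) / 4) :=
            one_le_rpow (by norm_num) (by positivity)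
          nlinarith
        have h3 : A * (2 : ℝ) ^ ((s : ℝ) / 4) / ll D * D / (3 * D)
            = A * (2 : ℝ) ^ ((s : ℝ) / 4) / (3 * ll D) := by
          field_simp
        rw [h3, div_le_div_iff₀ (by positivity) (by positivity)]
        nlinarith
      refine le_trans ?_ h1
      rw [le_div_iff₀ (by positivity)]
      have h4 : K1 * (log (3 * D)) ^ (-c0) * (3 * (5 * log (log D)))
          ≤ K1 * (log D) ^ (-c0) * (3 * (5 * (log (log D)) ^ 4)) := by
        gcongr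
      refine h4.trans ?_
      rw [rpow_neg hlogD.le]
      have h5 : K1 * ((log D) ^ c0)⁻¹ * (3 * (5 * (log (log D)) ^ 4))
          = (K1 * 3 * 5 * (log (log D)) ^ 4) * ((log D) ^ c0)⁻¹ := by ring
      rw [h5, ← div_eq_mul_inv, div_le_one (rpow_pos_of_pos hlogD _)]
      exact e4
    · rw [hs', div_le_iff₀ (by positivity), ← div_eq_inv_mul, le_div_iff₀ (by positivity)]
      have hpi : π ≤ 4 := pi_le_four
      rw [rpow_one] at e3
      have h1 : (2 : ℝ) ^ (s + 1) ≤ D := hs.trans (e3.trans hlogle)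
      calc 2 * π * 2 ^ (s + 1) ≤ 2 * 4 * D := by gcongr
        _ ≤ D ^ 4 := by nlinarith [pow_pos (show (0 : ℝ) < D by linarith) 3,
            mul_self_nonneg (D * D - D), mul_self_nonneg (D - 2), sq_nonneg (D * D)]
        _ ≤ _ := hb.1
  · unfold ep
    have h1 : (log D) ^ (-(c0 / 2)) = (log D) ^ (-c0) * (log D) ^ (c0 / 2) := by
      rw [← rpow_add hlogD]; congr 1; ring
    rw [h1]
    have h2 : C * (log (3 * D)) ^ (-c0) * (3 * D) ≤ C * (log D) ^ (-c0) * (3 * D) := by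
      gcongr
    refine h2.trans ?_
    have h3 : C * (log D) ^ (-c0) * (3 * D) = (log D) ^ (-c0) * (3 * C) * D := by ring
    rw [h3]
    have h4 : 3 * C ≤ (log D) ^ (c0 / 2) := by linarith
    gcongr
  · unfold ep
    have h1 : (log D) ^ (-(c0 / 2)) = (log D) ^ (-c0) * (log D) ^ (c0 / 2) := by
      rw [← rpow_add hlogD]; congr 1; ring
    rw [h1]
    have h4 : 2 * C ≤ (log D) ^ (c0 / 2) := by linarith
    calc 2 * (C * (log (3 * D)) ^ (-c0)) ≤ 2 * (C * (log D) ^ (-c0)) := by gcongr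
      _ = (log D) ^ (-c0) * (2 * C) := by ring
      _ ≤ _ := by gcongr

end Vale.Agent.P091.T.H522
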