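import Vale.Agent.P091.T.H522.Lift
import Vale.Agent.P091.T.H522.CutNum

/-! P091, heart, row CUT, part 1: the law of a node, the rounding of the bias, the law of `R_J`. -/

set_option autoImplicit false

open Finset Real
open Vale.Agent.P065.Ent
open Vale.Agent.P091.AD.H356
open Vale.Agent.P091.Spec

noncomputable section

namespace Vale.Agent.P091.T.H522

/-! ## push forward -/

/-- the map `X` carries `μ` to its law -/
theorem MP_Pr {Ω Γ : Type*} [Fintype Ω] [Fintype Γ] (μ : Ω → ℝ) (X : Ω → Γ) :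
    MP μ (Pr μ X) X := fun f => by
  classical
  have h : ∀ x, Pr μ X x * f x = ∑ ω, if X ω = x then μ ω * f x else 0 := by
    intro x
    unfold Pr
    rw [sum_mul]
    refine sum_congr rfl fun ω _ => ?_
    by_cases e : X ω = x
    · rw [if_pos e, if_pos e]
    · rw [if_neg e, if_neg e, zero_mul]
  rw [sum_congr rfl fun x _ => h x, sum_comm]
  refine sum_congr rfl fun ω _ => ?_
  rw [sum_ite_eq univ (X ω)]
  simp

theorem isProb_Pr {Ω Γ : Type*} [Fintype Ω] [Fintype Γ] {μ : Ω → ℝ} (hμ : IsProb μ) (X : Ω → Γ) :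
    IsProb (Pr μ X) := by
  refine ⟨fun x => Pr_nonneg hμ X x, ?_⟩
  have := MP_Pr μ X (fun _ => 1)
  simpa [hμ.sum] using this.symm

/-! ## the law of the node -/

/-- the law of the node: `q` restricted to the node, normalised, on `ZMod (2^M)` -/
def nlaw (n j a M : ℕ) (q : ℕ → ℝ) (y : ZMod (2 ^ M)) : ℝ :=
  (∑ i ∈ nd n j a, if (i : ZMod (2 ^ M)) = y then q i else 0) / ∑ i ∈ nd n j a, q i

theorem nlaw_sum (n j a M : ℕ) (q : ℕ → ℝ) (f : ZMod (2 ^ M) → ℝ) :
    ∑ y, nlaw n j a M q y * f y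
      = (∑ i ∈ nd n j a, q i * f (i : ZMod (2 ^ M))) / ∑ i ∈ nd n j a, q i := by
  unfold nlaw
  have h : ∀ y : ZMod (2 ^ M), (∑ i ∈ nd n j a, if (i : ZMod (2 ^ M)) = y then q i else 0)
      / (∑ i ∈ nd n j a, q i) * f y
      = (∑ i ∈ nd n j a, if (i : ZMod (2 ^ M)) = y then q i * f i else 0)
        / ∑ i ∈ nd n j a, q i := by
    intro y
    rw [div_mul_eq_mul_div, sum_mul]
    congr 1
    refine sum_congr rfl fun i _ => ?_
    by_cases e : (i : ZMod (2 ^ M)) = y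
    · rw [if_pos e, if_pos e, e]
    · rw [if_neg e, if_neg e, zero_mul]
  rw [sum_congr rfl fun y _ => h y, ← sum_div, sum_comm]
  congr 1
  refine sum_congr rfl fun i _ => ?_
  rw [sum_ite_eq univ (i : ZMod (2 ^ M))]
  simp

theorem nlaw_sumC (n j a M : ℕ) (q : ℕ → ℝ) (f : ZMod (2 ^ M) → ℂ) :
    ∑ y, (nlaw n j a M q y : ℂ) * f y
      = (∑ i ∈ nd n j a, (q i : ℂ) * f (i : ZMod (2 ^ M))) / ((∑ i ∈ nd n j a, q i : ℝ) : ℂ) := by
  have h1 := nlaw_sum n j a M q (fun y => (f y).re)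
  have h2 := nlaw_sum n j a M q (fun y => (f y).im)
  apply Complex.ext
  · rw [Complex.re_sum, Complex.div_ofReal_re, Complex.re_sum]
    simp only [Complex.re_ofReal_mul]
    exact h1
  · rw [Complex.im_sum, Complex.div_ofReal_im, Complex.im_sum]
    simp only [Complex.im_ofReal_mul]
    exact h2

theorem nlaw_isProb {n j a M : ℕ} {q : ℕ → ℝ} (hq : ∀ i, 0 ≤ q i)
    (hQ : 0 < ∑ i ∈ nd n j a, q i) : IsProb (nlaw n j a M q) := by
  constructor
  · intro y
    refine div_nonneg (sum_nonneg fun i _ => ?_) hQ.le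
    split_ifs
    · exact hq i
    · exact le_rfl
  · have := nlaw_sum n j a M q (fun _ => 1)
    simp only [mul_one] at this
    rw [this, div_self hQ.ne']

theorem cast_inj {n j a M : ℕ} (hM : 2 ^ (n - j) ≤ 2 ^ M) {i i' : ℕ} (hi : i ∈ nd n j a)
    (hi' : i' ∈ nd n j a) (h : (i : ZMod (2 ^ M)) = (i' : ZMod (2 ^ M))) : i = i' := by
  unfold nd at hi hi'
  rw [mem_Ico] at hi hi'
  rw [add_mul, one_mul] at hi hi'
  have key : ∀ x y : ℕ, x ≤ y → a * 2 ^ (n - j) ≤ x → y < a * 2 ^ (n - j) + 2 ^ (n - j) →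
      (x : ZMod (2 ^ M)) = (y : ZMod (2 ^ M)) → x = y := by
    intro x y hxy hx hy e
    rw [ZMod.natCast_eq_natCast_iff] at e
    have h1 := (Nat.modEq_iff_dvd' hxy).mp e
    have h2 : y - x = 0 := Nat.eq_zero_of_dvd_of_lt h1 (by omega)
    omega
  rcases le_total i i' with h1 | h1
  · exact key i i' h1 hi.1 hi'.2 h
  · exact (key i' i h1 hi'.1 hi.2 h.symm).symm

theorem nlaw_le {n j a M : ℕ} (hM : 2 ^ (n - j) ≤ 2 ^ M) {q : ℕ → ℝ} {B : ℝ}
    (hB : ∀ i, q i ≤ B) (hB0 : 0 ≤ B) (hQ : 0 < ∑ i ∈ nd n j a, q i)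
    (y : ZMod (2 ^ M)) : nlaw n j a M q y ≤ B / ∑ i ∈ nd n j a, q i := by
  unfold nlaw
  refine div_le_div_of_nonneg_right ?_ hQ.le
  rw [← sum_filter]
  have h1 : ((nd n j a).filter fun i : ℕ => (i : ZMod (2 ^ M)) = y).card ≤ 1 := by
    rw [card_le_one]
    intro i hi i' hi'
    rw [mem_filter] at hi hi'
    exact cast_inj hM hi.1 hi'.1 (hi.2.trans hi'.2.symm)
  calc ∑ i ∈ (nd n j a).filter (fun i : ℕ => (i : ZMod (2 ^ M)) = y), q i
      ≤ ((nd n j a).filter fun i : ℕ => (i : ZMod (2 ^ M)) = y).card • B :=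
        sum_le_card_nsmul _ _ _ fun i _ => hB i
    _ ≤ 1 • B := by
        rw [nsmul_eq_mul, nsmul_eq_mul]
        refine mul_le_mul_of_nonneg_right ?_ hB0
        exact_mod_cast h1
    _ = B := one_smul _ _

/-! ## the bias of the rounded letter -/

theorem Tch_eq (n b : ℕ) (r : ZMod (2 ^ (n + b))) (i : ℕ) :
    T.ch n b (r * (i : ZMod (2 ^ (n + b)))) = ch (n + b) r (i : ℤ) := by
  unfold T.ch
  rw [← std_eq (n + b) r (i : ℤ), Int.cast_natCast]

theorem Tch_neg (n b : ℕ) (x : ZMod (2 ^ (n + b))) :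
    T.ch n b (-x) = (starRingEnd ℂ) (T.ch n b x) := by
  unfold T.ch
  exact AddChar.map_neg_eq_conj _ _

theorem norm_BZ (n b : ℕ) (q : ℕ → ℝ) (r : ZMod (2 ^ (n + b))) (j a : ℕ) :
    ‖T.BZ n b q r j a‖ = ‖∑ i ∈ nd n j a, (q i : ℂ) * ch (n + b) r i‖ / 2 ^ (n - j) := by
  unfold T.BZ avC
  rw [norm_div]
  have h1 : ∑ i ∈ nd n j a, (q i : ℂ) * T.ch n b (-(r * (i : ZMod (2 ^ (n + b)))))
      = (starRingEnd ℂ) (∑ i ∈ nd n j a, (q i : ℂ) * ch (n + b) r i) := by
    rw [map_sum]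
    refine sum_congr rfl fun i _ => ?_
    rw [Tch_neg, Tch_eq, map_mul, Complex.conj_ofReal]
  rw [h1, RCLike.norm_conj]
  simp

theorem bias_rd {n b j a : ℕ} (hj : j ≤ n) {q : ℕ → ℝ} (hq : ∀ i, 0 ≤ q i)
    (r : ZMod (2 ^ (n + b))) :
    ‖∑ i ∈ nd n j a, (q i : ℂ) * ch (n + b) r i‖
      ≤ ‖∑ i ∈ nd n j a, (q i : ℂ) * ch (n + b - j) (rd (n + b) j r) i‖
        + 2 * π / 2 ^ b * ∑ i ∈ nd n j a, q i := by
  set i0 : ℤ := ((a * 2 ^ (n - j) : ℕ) : ℤ) with hi0
  set w : ℂ := e ((lo (n + b) j r : ℝ) * (i0 : ℝ) / 2 ^ (n + b)) with hw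
  have h1 : ∀ i ∈ nd n j a, ‖(q i : ℂ) * ch (n + b) r i
      - w * ((q i : ℂ) * ch (n + b - j) (rd (n + b) j r) i)‖ ≤ 2 * π / 2 ^ b * q i := by
    intro i hi
    have h2 : ch (n + b) r i = ch (n + b - j) (rd (n + b) j r) i
        * (w * e ((lo (n + b) j r : ℝ) * (((i : ℤ) : ℝ) - i0) / 2 ^ (n + b))) := by
      rw [ch_rd (by omega : j ≤ n + b) r (i : ℤ), hw, ← e_add]
      congr 2
      ring
    have h3 : (q i : ℂ) * ch (n + b) r i
        - w * ((q i : ℂ) * ch (n + b - j) (rd (n + b) j r) i)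
        = (q i : ℂ) * (ch (n + b - j) (rd (n + b) j r) i * w
          * (e ((lo (n + b) j r : ℝ) * (((i : ℤ) : ℝ) - i0) / 2 ^ (n + b)) - 1)) := by
      rw [h2]; ring
    have hwn : ‖w‖ = 1 := norm_e _
    rw [h3, norm_mul, norm_mul, norm_mul, norm_ch, hwn, one_mul, one_mul, Complex.norm_real,
      Real.norm_of_nonneg (hq i), mul_comm]
    refine mul_le_mul_of_nonneg_right ?_ (hq i)
    refine (norm_e_sub_one_le _).trans ?_
    have h7 : 2 * π / 2 ^ b = 2 * π * (1 / 2 ^ b) := by ring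
    rw [h7]
    refine mul_le_mul_of_nonneg_left ?_ (by positivity)
    have h4 : |(((i : ℤ) : ℝ)) - (i0 : ℝ)| ≤ 2 ^ (n - j) := by
      unfold nd at hi
      rw [mem_Ico, add_mul, one_mul] at hi
      rw [hi0]
      push_cast
      have a1 : ((a * 2 ^ (n - j) : ℕ) : ℝ) ≤ (i : ℝ) := by exact_mod_cast hi.1
      have a2 : (i : ℝ) < ((a * 2 ^ (n - j) + 2 ^ (n - j) : ℕ) : ℝ) := by exact_mod_cast hi.2
      push_cast at a1 a2
      rw [abs_of_nonneg (by linarith)]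
      linarith
    exact lo_small (b := b) hj r (i : ℤ) i0 h4
  have h6 : ∑ i ∈ nd n j a, (q i : ℂ) * ch (n + b) r i
      = w * (∑ i ∈ nd n j a, (q i : ℂ) * ch (n + b - j) (rd (n + b) j r) i)
        + ∑ i ∈ nd n j a, ((q i : ℂ) * ch (n + b) r i
          - w * ((q i : ℂ) * ch (n + b - j) (rd (n + b) j r) i)) := by
    rw [sum_sub_distrib, mul_sum]
    ring
  rw [h6]
  refine (norm_add_le _ _).trans ?_
  have hwn : ‖w‖ = 1 := norm_e _
  rw [norm_mul, hwn, one_mul]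
  refine add_le_add le_rfl ?_
  refine (norm_sum_le _ _).trans ?_
  rw [mul_sum]
  exact sum_le_sum h1

/-! ## the law of `R_J` -/

theorem MP_lawR {n b : ℕ} (k : T.Un n b) (J : List (T.Un n b)) :
    MP (px k.P (T.lawR J)) (T.lawR (k :: J)) (fun w => w.1 + w.2) := fun f => by
  rw [Fintype.sum_prod_type]
  have h1 : ∀ r, T.lawR (k :: J) r * f r = ∑ s, k.P s * T.lawR J (r - s) * f r := by
    intro r
    show (∑ s, k.P s * T.lawR J (r - s)) * f r = _
    rw [sum_mul]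
  rw [sum_congr rfl fun r _ => h1 r]
  conv_rhs => rw [sum_comm]
  refine sum_congr rfl fun s _ => ?_
  rw [← Equiv.sum_comp (Equiv.addLeft s) fun r => k.P s * T.lawR J (r - s) * f r]
  refine sum_congr rfl fun t _ => ?_
  unfold px
  simp only [Equiv.coe_addLeft, add_sub_cancel_left]

theorem lawR_isProb {n b : ℕ} : ∀ J : List (T.Un n b), (∀ k ∈ J, IsProb k.P) →
    IsProb (T.lawR J)
  | [], _ => by
      refine ⟨fun r => ?_, ?_⟩
      · unfold T.lawR
        split_ifs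
        · exact zero_le_one
        · exact le_rfl
      · unfold T.lawR
        rw [sum_ite_eq' univ (0 : ZMod (2 ^ (n + b)))]
        simp
  | k :: J, h => by
      have hk := h k (by simp)
      have hJ := lawR_isProb J fun k' hk' => h k' (List.mem_cons_of_mem _ hk')
      have hpx := px_isProb hk hJ
      refine ⟨fun r => ?_, ?_⟩
      · exact sum_nonneg fun s _ => mul_nonneg (hk.nonneg _) (hJ.nonneg _)
      · have := MP_lawR k J (fun _ => 1)
        simpa [hpx.sum] using this.symm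

end Vale.Agent.P091.T.H522
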