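import Vale.Agent.P091.T.H522.Cut1
import Vale.Agent.P091.T.H522.Half

/-! P091, heart, row CUT, part 2: unexplained letters, growth of the entropy, validity of the
unit. -/

set_option autoImplicit false

open Finset Real
open Vale.Agent.P065.Ent
open Vale.Agent.P091.AD.H356
open Vale.Agent.P091.AD hiding av
open Vale.Agent.P091.Spec

noncomputable section

namespace Vale.Agent.P091.T.H522

section cls
variable {C1 D : ℝ} {n b : ℕ} {ι : Type} [Fintype ι] (d : T.ZData C1 D n b ι)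

open Classical in
/-- the mass of a rounded letter -/
def alp (j a : ℕ) (χ : AddChar (ZMod (2 ^ (n + b - j))) ℂ) : ℝ :=
  ∑ k, if Phi (n + b - j) (T.rd n b j (d.r k)) = χ then av n j a (d.a k) else 0

theorem av_nonneg (j a : ℕ) (k : ι) : 0 ≤ av n j a (d.a k) := by
  unfold av
  exact div_nonneg (sum_nonneg fun i _ => d.a_nonneg k i) (by positivity)

theorem alp_nonneg (j a : ℕ) (χ : AddChar (ZMod (2 ^ (n + b - j))) ℂ) : 0 ≤ alp d j a χ := by
  classical
  unfold alp
  refine sum_nonneg fun k _ => ?_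
  split_ifs
  · exact av_nonneg d j a k
  · exact le_rfl

theorem alp_conv (J : List (T.Un n b)) (j a : ℕ) (s γ : ZMod (2 ^ (n + b - j))) :
    ∑ i, T.lawR J i * alp d j a (Phi (n + b - j) s + Phi (n + b - j) γ
      - Phi (n + b - j) (T.rd n b j i)) = T.al d J j a (γ + s) := by
  classical
  have h1 : ∀ i, T.lawR J i * alp d j a (Phi (n + b - j) s + Phi (n + b - j) γ
      - Phi (n + b - j) (T.rd n b j i))
      = ∑ k, if T.rd n b j i = γ + s - T.rd n b j (d.r k)
        then av n j a (d.a k) * T.lawR J i else 0 := by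
    intro i
    unfold alp
    rw [mul_sum]
    refine sum_congr rfl fun k _ => ?_
    have h2 : (Phi (n + b - j) (T.rd n b j (d.r k)) = Phi (n + b - j) s + Phi (n + b - j) γ
        - Phi (n + b - j) (T.rd n b j i)) ↔ (T.rd n b j i = γ + s - T.rd n b j (d.r k)) := by
      rw [← map_add, ← map_sub, (Phi (n + b - j)).injective.eq_iff]
      constructor
      · intro e
        rw [e]; ring
      · intro e
        rw [e]; ring
    by_cases e : T.rd n b j i = γ + s - T.rd n b j (d.r k)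
    · rw [if_pos (h2.mpr e), if_pos e, mul_comm]
    · rw [if_neg (fun e' => e (h2.mp e')), if_neg e, mul_zero]
  rw [sum_congr rfl fun i _ => h1 i, sum_comm]
  unfold T.al T.pj Pr
  refine sum_congr rfl fun k _ => ?_
  rw [mul_sum]
  refine sum_congr rfl fun i _ => ?_
  by_cases e : T.rd n b j i = γ + s - T.rd n b j (d.r k)
  · rw [if_pos e, if_pos e]
  · rw [if_neg e, if_neg e, mul_zero]

theorem Pr_Phi (J : List (T.Un n b)) (j : ℕ) (s : ZMod (2 ^ (n + b - j))) :
    Pr (T.lawR J) (fun r => Phi (n + b - j) (T.rd n b j r)) (Phi (n + b - j) s)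
      = T.pj J j s := by
  classical
  unfold T.pj Pr
  refine sum_congr rfl fun i _ => ?_
  by_cases e : T.rd n b j i = s
  · rw [if_pos e, if_pos (show Phi (n + b - j) (T.rd n b j i) = Phi (n + b - j) s by rw [e])]
  · rw [if_neg e, if_neg fun e' => e ((Phi (n + b - j)).injective e')]

theorem unex {J : List (T.Un n b)} (hJ : IsProb (T.lawR J)) {θ : ℝ} {j a : ℕ} {k : ι}
    (h : T.Unx d J θ j a k) :
    Unexpl2 (T.lawR J) (fun r => Phi (n + b - j) (T.rd n b j r)) (alp d j a) θ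
      (Phi (n + b - j) (T.rd n b j (d.r k))) := by
  classical
  unfold Unexpl2
  have h1 : ∀ x, T.lawR J x * (if exp θ * ∑ i, T.lawR J i * alp d j a
      (Phi (n + b - j) (T.rd n b j x) + Phi (n + b - j) (T.rd n b j (d.r k))
        - Phi (n + b - j) (T.rd n b j i))
      < Pr (T.lawR J) (fun r => Phi (n + b - j) (T.rd n b j r))
        (Phi (n + b - j) (T.rd n b j x)) then (1 : ℝ) else 0)
      = T.lawR J x * (fun s => if exp θ * T.al d J j a (T.rd n b j (d.r k) + s)
        < T.pj J j s then (1 : ℝ) else 0) (T.rd n b j x) := by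
    intro x
    rw [alp_conv, Pr_Phi]
  rw [sum_congr rfl fun x _ => h1 x]
  rw [MP_Pr (T.lawR J) (T.rd n b j) (fun s => if exp θ * T.al d J j a (T.rd n b j (d.r k) + s)
        < T.pj J j s then (1 : ℝ) else 0)]
  have h2 : ∑ s, Pr (T.lawR J) (T.rd n b j) s = 1 := (isProb_Pr hJ _).sum
  have h3 : ∑ s, Pr (T.lawR J) (T.rd n b j) s *
      (if exp θ * T.al d J j a (T.rd n b j (d.r k) + s) < T.pj J j s then (1 : ℝ) else 0)
      = ∑ s, Pr (T.lawR J) (T.rd n b j) s - T.xp d J θ j a k := by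
    unfold T.xp
    rw [← sum_sub_distrib]
    refine sum_congr rfl fun s _ => ?_
    have h4 : Pr (T.lawR J) (T.rd n b j) s = T.pj J j s := rfl
    rw [h4]
    by_cases e : T.pj J j s ≤ exp θ * T.al d J j a (T.rd n b j (d.r k) + s)
    · rw [if_neg (not_lt.mpr e), if_pos e]; ring
    · rw [if_pos (not_le.mp e), if_neg e]; ring
  rw [h3, h2]
  have h5 : T.xp d J θ j a k < 3 / 8 := h
  linarith

end cls

/-! ## growth -/

theorem F_cons {n b j : ℕ} (hj : j ≤ n + b) (J : List (T.Un n b)) {Ω : Type} [Fintype Ω]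
    (β : Ω → ℝ) (g : Ω → ZMod (2 ^ (n + b - j))) (k : T.Un n b)
    (hk : k.P = Pr β (fun u => em (n + b) j (g u))) :
    T.F (k :: J) j = H (px (T.lawR J) β) (fun w => T.rd n b j w.1 + g w.2) := by
  unfold T.F
  have h1 : H (px k.P (T.lawR J)) (fun w => T.rd n b j (w.1 + w.2))
      = H (T.lawR (k :: J)) (T.rd n b j) := (MP_lawR k J).ent (T.rd n b j)
  have h2 : MP (px β (T.lawR J)) (px k.P (T.lawR J))
      (Prod.map (fun u => em (n + b) j (g u)) (fun ω => ω)) := by
    rw [hk]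
    exact (MP_Pr β _).prodMap (MP_id _)
  have h3 := h2.ent (fun w => T.rd n b j (w.1 + w.2))
  have h4 : H (px β (T.lawR J)) (fun w => T.rd n b j w.2 + g w.1)
      = H (px (T.lawR J) β) (fun w => T.rd n b j w.1 + g w.2) :=
    (MP_swap (μ := β) (ν := T.lawR J)).ent (fun w => T.rd n b j w.1 + g w.2)
  rw [← h1, ← h3, ← h4]
  refine congrArg _ ?_
  funext w
  show T.rd n b j (em (n + b) j (g w.1) + w.2) = _
  have h5 : em (n + b) j (g w.1) + w.2 = w.2 + em (n + b) j (g w.1) := add_comm _ _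
  rw [h5]
  exact rd_add_em hj w.2 (g w.1)

theorem growth_F {n b j : ℕ} (hj : j ≤ n + b) (J : List (T.Un n b))
    (lam : Law (AddChar (ZMod (2 ^ (n + b - j))) ℂ)) (k : T.Un n b)
    (hk : k.P = Pr lam.beta (fun u => em (n + b) j ((Phi (n + b - j)).symm (lam.N u)))) (t : ℝ)
    (h : H (T.lawR J) (fun r => Phi (n + b - j) (T.rd n b j r)) + t
      ≤ H (fun w : ZMod (2 ^ (n + b)) × lam.Lt => T.lawR J w.1 * lam.beta w.2)
        (fun w => Phi (n + b - j) (T.rd n b j w.1) + lam.N w.2)) :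
    T.F J j + t ≤ T.F (k :: J) j := by
  rw [F_cons hj J lam.beta (fun u => (Phi (n + b - j)).symm (lam.N u)) k hk]
  have h1 : H (T.lawR J) (fun r => Phi (n + b - j) (T.rd n b j r)) = T.F J j := by
    unfold T.F
    refine H_congr (fun x y e => (Phi (n + b - j)).injective e) (fun x y e => ?_)
    show Phi (n + b - j) (T.rd n b j x) = Phi (n + b - j) (T.rd n b j y)
    rw [show T.rd n b j x = T.rd n b j y from e]
  have h2 : H (fun w : ZMod (2 ^ (n + b)) × lam.Lt => T.lawR J w.1 * lam.beta w.2)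
      (fun w => Phi (n + b - j) (T.rd n b j w.1) + lam.N w.2)
      = H (px (T.lawR J) lam.beta)
        (fun w => T.rd n b j w.1 + (Phi (n + b - j)).symm (lam.N w.2)) := by
    refine H_congr (fun x y e => ?_) (fun x y e => ?_)
    · have e' : Phi (n + b - j) (T.rd n b j x.1) + lam.N x.2
        = Phi (n + b - j) (T.rd n b j y.1) + lam.N y.2 := e
      have e2 := congrArg (Phi (n + b - j)).symm e'
      rw [map_add, map_add, AddEquiv.symm_apply_apply, AddEquiv.symm_apply_apply] at e2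
      exact e2
    · have e' : T.rd n b j x.1 + (Phi (n + b - j)).symm (lam.N x.2)
        = T.rd n b j y.1 + (Phi (n + b - j)).symm (lam.N y.2) := e
      have e2 := congrArg (Phi (n + b - j)) e'
      rw [map_add, map_add, AddEquiv.apply_symm_apply, AddEquiv.apply_symm_apply] at e2
      exact e2
  rw [← h1, ← h2]
  exact h

/-! ## validity of the unit -/

/-- the unit of a law `lam` of the node group and of a noise `ρ` -/
def mkUn {n b j : ℕ} (lam : Law (AddChar (ZMod (2 ^ (n + b - j))) ℂ))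
    (ρ : ZMod (2 ^ (n + b - j)) → ℝ) : T.Un n b where
  P := Pr lam.beta (fun u => em (n + b) j ((Phi (n + b - j)).symm (lam.N u)))
  ρ := rhoN (n + b) j ρ

theorem supp_le {n b j : ℕ} (lam : Law (AddChar (ZMod (2 ^ (n + b - j))) ℂ))
    (ρ : ZMod (2 ^ (n + b - j)) → ℝ) (A : Finset (AddChar (ZMod (2 ^ (n + b - j))) ℂ))
    (hA : ∀ ω, lam.a ω ∈ A) [DecidablePred fun r => (mkUn (n := n) (b := b) (j := j) lam ρ).P r ≠ 0] :
    ((univ.filter fun r => (mkUn (n := n) (b := b) (j := j) lam ρ).P r ≠ 0).card : ℝ)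
      ≤ (A.card : ℝ) * A.card := by
  classical
  have h1 : (univ.filter fun r => (mkUn (n := n) (b := b) (j := j) lam ρ).P r ≠ 0)
      ⊆ (A ×ˢ A).image fun c => em (n + b) j ((Phi (n + b - j)).symm (c.1 - c.2)) := by
    intro r hr
    rw [mem_filter] at hr
    by_contra hcon
    refine hr.2 (Pr_eq_zero _ fun u hu => hcon ?_)
    rw [mem_image]
    exact ⟨(lam.a u.1, lam.a u.2), mem_product.mpr ⟨hA _, hA _⟩, hu⟩
  have h2 := (card_le_card h1).trans card_image_le
  rw [card_product] at h2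
  exact_mod_cast h2

theorem coh_le {n b j : ℕ} (hj : j ≤ n + b) (lam : Law (AddChar (ZMod (2 ^ (n + b - j))) ℂ))
    (ρ : ZMod (2 ^ (n + b - j)) → ℝ) {κ : ℝ} (h : ∑ t, ρ t * (1 - lam.m t) ≤ κ) :
    ∑ r, ∑ t, (mkUn (n := n) (b := b) (j := j) lam ρ).P r
      * (mkUn (n := n) (b := b) (j := j) lam ρ).ρ t * ‖1 - T.ch n b (r * t)‖ ^ 2 ≤ 2 * κ := by
  have h0 := Heart.H896.coherence lam h
  refine le_trans (le_of_eq ?_) h0
  have h1 : ∀ r, ∑ t, (mkUn (n := n) (b := b) (j := j) lam ρ).P r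
      * (mkUn (n := n) (b := b) (j := j) lam ρ).ρ t * ‖1 - T.ch n b (r * t)‖ ^ 2
      = (mkUn (n := n) (b := b) (j := j) lam ρ).P r
        * (fun r' => ∑ t, (mkUn (n := n) (b := b) (j := j) lam ρ).ρ t
          * ‖1 - T.ch n b (r' * t)‖ ^ 2) r := by
    intro r
    simp only
    rw [mul_sum]
    exact sum_congr rfl fun t _ => by ring
  rw [sum_congr rfl fun r _ => h1 r]
  have h2 := MP_Pr lam.beta (fun u => em (n + b) j ((Phi (n + b - j)).symm (lam.N u)))
    (fun r' => ∑ t, (mkUn (n := n) (b := b) (j := j) lam ρ).ρ t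
          * ‖1 - T.ch n b (r' * t)‖ ^ 2)
  refine h2.symm.trans ?_
  refine sum_congr rfl fun u _ => ?_
  have h3 : ∀ t, ‖1 - T.ch n b (em (n + b) j ((Phi (n + b - j)).symm (lam.N u)) * t)‖ ^ 2
      = ‖1 - lam.N u (pro (n + b) j t)‖ ^ 2 := by
    intro t
    unfold T.ch
    rw [std_em hj, AddEquiv.apply_symm_apply]
  have h4 : ∑ t, (mkUn (n := n) (b := b) (j := j) lam ρ).ρ t
      * ‖1 - T.ch n b (em (n + b) j ((Phi (n + b - j)).symm (lam.N u)) * t)‖ ^ 2
      = ∑ g, ρ g * ‖1 - lam.N u g‖ ^ 2 := by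
    rw [← rhoN_MP hj ρ (fun g => ‖1 - lam.N u g‖ ^ 2)]
    exact sum_congr rfl fun t _ => by rw [h3]; rfl
  rw [h4, mul_sum]
  exact sum_congr rfl fun g _ => by ring

theorem mkUn_ok {n b j : ℕ} (hj : j ≤ n + b) {A : Finset (AddChar (ZMod (2 ^ (n + b - j))) ℂ)}
    {μ : ZMod (2 ^ (n + b - j)) → ℝ} {σ R κ D ε : ℝ}
    {lam : Law (AddChar (ZMod (2 ^ (n + b - j))) ℂ)} {y0 : ZMod (2 ^ (n + b - j))}
    {ρ : ZMod (2 ^ (n + b - j)) → ℝ} (hu : IsUnit12 A μ σ R κ lam y0 ρ)
    (hA : (A.card : ℝ) ≤ exp (2 * R)) (hR : 4 * R ≤ 16 * D) (h1 : 2 * κ ≤ ε)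
    (h2 : κ * R ≤ ε * D) {Y : Finset ℕ}
    (hY : ∀ i ∈ Y, σ ^ 4 / 4 ≤ lam.m ((i : ZMod (2 ^ (n + b - j))) - y0)) :
    (mkUn (n := n) (b := b) (j := j) lam ρ).Ok ε D Y := by
  classical
  refine ⟨isProb_Pr lam.beta_isProb _, rhoN_isProb hj hu.prob, ?_, ?_, ?_⟩
  · refine (supp_le lam ρ A (fun ω => (hu.cost ω).1)).trans ?_
    calc (A.card : ℝ) * A.card ≤ exp (2 * R) * exp (2 * R) :=
          mul_le_mul hA hA (Nat.cast_nonneg _) (exp_pos _).le
      _ = exp (4 * R) := by rw [← exp_add]; congr 1; ring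
      _ ≤ exp (16 * D) := exp_le_exp.mpr hR
  · exact (coh_le hj lam ρ hu.noise).trans h1
  · intro lam0 hlam0 hsupp
    set ν := Pr lam0 (pro (n + b) j) with hν
    have hνp : IsProb ν := isProb_Pr hlam0 _
    have hMP : MP lam0 ν (pro (n + b) j) := MP_Pr _ _
    have h3 := info_lift hj hu.prob hlam0 hνp hMP
    have h4 := hu.absorb ν hνp (fun y hy => by
      have h5 : ∃ x, lam0 x ≠ 0 ∧ pro (n + b) j x = y := by
        by_contra hcon
        push Not at hcon
        have h6 : ν y = 0 := by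
          rw [hν]
          unfold Pr
          refine sum_eq_zero fun x _ => ?_
          by_cases e : pro (n + b) j x = y
          · rw [if_pos e]
            by_contra h7
            exact hcon x h7 e
          · rw [if_neg e]
        rw [h6] at hy
        exact lt_irrefl _ hy
      obtain ⟨x, hx, hxy⟩ := h5
      obtain ⟨i, hi, hix⟩ := hsupp x hx
      rw [← hxy, ← hix, pro_natCast]
      exact hY i hi)
    have h5 : I (T.prw lam0 (mkUn (n := n) (b := b) (j := j) lam ρ).ρ) (fun w => w.1)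
        (fun w => w.1 + w.2) (fun _ => ()) ≤ κ * R := h3.trans h4
    exact h5.trans h2

end Vale.Agent.P091.T.H522
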