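import Vale.Agent.P091.T.H522.Round

/-! P091, heart, T2: the exact identity (G1).

A finite family `J` of units; the unit `u` has a level `lv u`, a law `ν u` of letters and a law
`ρ u` of noises, both on `ZMod (2^(m - lv u))`.  `R S = ∑ em (S u)`, labels `q u = y + t u`.
For all letters `r` and all `x, y`: `conj (ch r y)` is a combination of
`conj (ch (m-j) k y) * P(L = q | y)` with coefficients `X k q` bounded by `c⁻¹ P(k | r)`. -/

set_option autoImplicit false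
set_option linter.unusedSectionVars false

open Finset

namespace Vale.Agent.P091.T.H522

open Vale.Agent.P091.Spec (e)

/-! ## the pairing of `ZMod (2^k)` with itself -/

/-- `e(S t / 2^k)` -/
noncomputable def pr (k : ℕ) (S t : ZMod (2 ^ k)) : ℂ := ch k S (t.val : ℤ)

theorem norm_pr (k : ℕ) (S t : ZMod (2 ^ k)) : ‖pr k S t‖ = 1 := norm_ch _ _ _

theorem ch_emod (k : ℕ) (S : ZMod (2 ^ k)) (i : ℤ) : ch k S i = ch k S (i % (2 ^ k : ℕ)) := by
  conv_lhs => rw [← Int.emod_add_mul_ediv i (2 ^ k : ℕ)]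
  rw [ch_add_right]
  have : ch k S (((2 ^ k : ℕ) : ℤ) * (i / ((2 ^ k : ℕ) : ℤ))) = 1 := by
    unfold ch
    have h : (S.val : ℝ) * ((((2 ^ k : ℕ) : ℤ) * (i / ((2 ^ k : ℕ) : ℤ)) : ℤ) : ℝ) / 2 ^ k
        = (((S.val : ℤ) * (i / ((2 ^ k : ℕ) : ℤ)) : ℤ) : ℝ) := by
      generalize (i / ((2 ^ k : ℕ) : ℤ)) = q
      push_cast
      field_simp
    rw [h, e_int]
  rw [this, mul_one]

theorem ch_eq_pr (k : ℕ) (S : ZMod (2 ^ k)) (i : ℤ) : ch k S i = pr k S (i : ZMod (2 ^ k)) := by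
  unfold pr
  rw [ch_emod]
  congr 1
  exact (ZMod.val_intCast i).symm

theorem pr_add_right (k : ℕ) (S t u : ZMod (2 ^ k)) : pr k S (t + u) = pr k S t * pr k S u := by
  have h : t + u = (((t.val + u.val : ℕ) : ℤ) : ZMod (2 ^ k)) := by
    push_cast [ZMod.natCast_val, ZMod.cast_id', id]
    rfl
  rw [h, ← ch_eq_pr]
  unfold pr
  rw [← ch_add_right]
  push_cast
  rfl

theorem pr_add_left (k : ℕ) (S T t : ZMod (2 ^ k)) : pr k (S + T) t = pr k S t * pr k T t :=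
  ch_add _ _ _ _

/-! ## units -/

section units
variable {J : Type} [Fintype J] [DecidableEq J] (m : ℕ) (lv : J → ℕ)

/-- the total letter -/
def R (S : (u : J) → ZMod (2 ^ (m - lv u))) : ZMod (2 ^ m) := ∑ u, em m (lv u) (S u)

/-- product law -/
noncomputable def PS (ν : (u : J) → ZMod (2 ^ (m - lv u)) → ℝ)
    (S : (u : J) → ZMod (2 ^ (m - lv u))) : ℝ := ∏ u, ν u (S u)

/-- `P(L = q | y)` -/
noncomputable def PL (ρ : (u : J) → ZMod (2 ^ (m - lv u)) → ℝ)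
    (q : (u : J) → ZMod (2 ^ (m - lv u))) (y : ℤ) : ℝ :=
  ∏ u, ρ u (q u - (y : ZMod (2 ^ (m - lv u))))

/-- the Fourier coefficient of the noise -/
noncomputable def rh (k : ℕ) (ρ : ZMod (2 ^ k) → ℝ) (S : ZMod (2 ^ k)) : ℂ := ∑ t, ρ t * pr k S t

/-- `∏ ρ̂_u(S_u)` -/
noncomputable def cS (ρ : (u : J) → ZMod (2 ^ (m - lv u)) → ℝ)
    (S : (u : J) → ZMod (2 ^ (m - lv u))) : ℂ := ∏ u, rh (m - lv u) (ρ u) (S u)

variable {m lv}

theorem ch_sum {ι : Type*} (s : Finset ι) (f : ι → ZMod (2 ^ m)) (y : ℤ) :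
    ch m (∑ i ∈ s, f i) y = ∏ i ∈ s, ch m (f i) y := by
  classical
  induction s using Finset.induction_on with
  | empty => simp [ch_zero]
  | insert a s ha ih => rw [sum_insert ha, prod_insert ha, ch_add, ih]

theorem ch_R (hlv : ∀ u, lv u ≤ m) (S : (u : J) → ZMod (2 ^ (m - lv u))) (y : ℤ) :
    ch m (R m lv S) y = ∏ u, ch (m - lv u) (S u) y := by
  unfold R
  rw [ch_sum]
  exact prod_congr rfl fun u _ => ch_em (hlv u) _ _

theorem PS_nonneg {ν : (u : J) → ZMod (2 ^ (m - lv u)) → ℝ} (h : ∀ u S, 0 ≤ ν u S)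
    (S : (u : J) → ZMod (2 ^ (m - lv u))) : 0 ≤ PS m lv ν S := prod_nonneg fun u _ => h u _

theorem PL_nonneg {ρ : (u : J) → ZMod (2 ^ (m - lv u)) → ℝ} (h : ∀ u S, 0 ≤ ρ u S)
    (q : (u : J) → ZMod (2 ^ (m - lv u))) (y : ℤ) : 0 ≤ PL m lv ρ q y :=
  prod_nonneg fun u _ => h u _

theorem PS_sum {ν : (u : J) → ZMod (2 ^ (m - lv u)) → ℝ} (h : ∀ u, ∑ S, ν u S = 1) :
    ∑ S, PS m lv ν S = 1 := by
  unfold PS
  have h1 := Finset.prod_univ_sum (fun u : J => (univ : Finset (ZMod (2 ^ (m - lv u)))))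
    (fun u S => ν u S)
  rw [Fintype.piFinset_univ] at h1
  rw [← h1]
  exact prod_eq_one fun u _ => h u

theorem sum_shift (k : ℕ) (f : ZMod (2 ^ k) → ℂ) (a : ZMod (2 ^ k)) :
    ∑ q, f (q - a) = ∑ t, f t :=
  Fintype.sum_equiv (Equiv.subRight a) _ _ fun _ => rfl

theorem PL_sum {ρ : (u : J) → ZMod (2 ^ (m - lv u)) → ℝ} (h : ∀ u, ∑ S, ρ u S = 1) (y : ℤ) :
    ∑ q, PL m lv ρ q y = 1 := by
  unfold PL
  have h1 := Finset.prod_univ_sum (fun u : J => (univ : Finset (ZMod (2 ^ (m - lv u)))))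
    (fun u q => ρ u (q - (y : ZMod (2 ^ (m - lv u)))))
  rw [Fintype.piFinset_univ] at h1
  rw [← h1]
  refine prod_eq_one fun u _ => ?_
  rw [← h u]
  exact Fintype.sum_equiv (Equiv.subRight _) _ _ fun _ => rfl

/-- averaging the labels -/
theorem sum_label (hlv : ∀ u, lv u ≤ m) (ρ : (u : J) → ZMod (2 ^ (m - lv u)) → ℝ)
    (S : (u : J) → ZMod (2 ^ (m - lv u))) (y : ℤ) :
    ∑ q : (u : J) → ZMod (2 ^ (m - lv u)), (∏ u, pr (m - lv u) (S u) (q u)) * (PL m lv ρ q y : ℂ)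
      = ch m (R m lv S) y * cS m lv ρ S := by
  have h1 := Finset.prod_univ_sum (fun u : J => (univ : Finset (ZMod (2 ^ (m - lv u)))))
    (fun u q => pr (m - lv u) (S u) q * (ρ u (q - (y : ZMod (2 ^ (m - lv u)))) : ℂ))
  rw [Fintype.piFinset_univ] at h1
  have h2 : ∀ u : J, ∑ q, pr (m - lv u) (S u) q * (ρ u (q - (y : ZMod (2 ^ (m - lv u)))) : ℂ)
      = ch (m - lv u) (S u) y * rh (m - lv u) (ρ u) (S u) := by
    intro u
    have h3 := sum_shift (m - lv u)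
      (fun t => pr (m - lv u) (S u) (t + (y : ZMod (2 ^ (m - lv u)))) * (ρ u t : ℂ))
      (y : ZMod (2 ^ (m - lv u)))
    simp only [sub_add_cancel] at h3
    rw [h3, ch_eq_pr]
    unfold rh
    rw [mul_sum]
    refine sum_congr rfl fun t _ => ?_
    rw [pr_add_right]
    ring
  rw [ch_R hlv]
  unfold cS PL
  rw [← prod_mul_distrib, ← prod_congr rfl fun u _ => h2 u, h1]
  refine sum_congr rfl fun q _ => ?_
  rw [prod_mul_distrib]
  push_cast
  rfl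

/-! ## the coefficients -/

/-- the list element `k = r / 2^j + R / 2^j` -/
def kk (j : ℕ) (r : ZMod (2 ^ m)) (S : (u : J) → ZMod (2 ^ (m - lv u))) : ZMod (2 ^ (m - j)) :=
  rd m j r + rd m j (R m lv S)

/-- the slow frequency -/
noncomputable def sl (j : ℕ) (r : ZMod (2 ^ m)) (S : (u : J) → ZMod (2 ^ (m - lv u))) : ℝ :=
  (lo m j r + lo m j (R m lv S)) / 2 ^ m

/-- `c⁻¹ ∑_{S : k(S) = k} P(S) ∏ pr(S_u, q_u) conj e(sl(S) x)` -/
noncomputable def X (j : ℕ) (ν : (u : J) → ZMod (2 ^ (m - lv u)) → ℝ) (c : ℝ) (r : ZMod (2 ^ m))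
    (x : ℤ) (k : ZMod (2 ^ (m - j))) (q : (u : J) → ZMod (2 ^ (m - lv u))) : ℂ :=
  (c : ℂ)⁻¹ * ∑ S : (u : J) → ZMod (2 ^ (m - lv u)), if kk j r S = k then
    (PS m lv ν S : ℂ) * (∏ u, pr (m - lv u) (S u) (q u)) * (starRingEnd ℂ) (e (sl j r S * x))
    else 0

/-- `P(k | r)` -/
noncomputable def Pk (j : ℕ) (ν : (u : J) → ZMod (2 ^ (m - lv u)) → ℝ) (r : ZMod (2 ^ m))
    (k : ZMod (2 ^ (m - j))) : ℝ :=
  ∑ S : (u : J) → ZMod (2 ^ (m - lv u)), if kk j r S = k then PS m lv ν S else 0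

theorem Pk_nonneg {j : ℕ} {ν : (u : J) → ZMod (2 ^ (m - lv u)) → ℝ} (h : ∀ u S, 0 ≤ ν u S)
    (r : ZMod (2 ^ m)) (k : ZMod (2 ^ (m - j))) : 0 ≤ Pk j ν r k := by
  unfold Pk
  refine sum_nonneg fun S _ => ?_
  split_ifs
  · exact PS_nonneg h S
  · exact le_rfl

theorem Pk_sum {j : ℕ} {ν : (u : J) → ZMod (2 ^ (m - lv u)) → ℝ} (h : ∀ u, ∑ S, ν u S = 1)
    (r : ZMod (2 ^ m)) : ∑ k, Pk j ν r k = 1 := by
  unfold Pk
  rw [sum_comm, ← PS_sum h]
  refine sum_congr rfl fun S _ => ?_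
  rw [sum_ite_eq]
  simp

/-- `P(k | r)` depends on `k - r / 2^j` only -/
theorem Pk_eq {j : ℕ} (ν : (u : J) → ZMod (2 ^ (m - lv u)) → ℝ) (r : ZMod (2 ^ m))
    (k : ZMod (2 ^ (m - j))) :
    Pk j ν r k = ∑ S : (u : J) → ZMod (2 ^ (m - lv u)),
      if rd m j (R m lv S) = k - rd m j r then PS m lv ν S else 0 := by
  unfold Pk
  refine sum_congr rfl fun S _ => ?_
  unfold kk
  have : rd m j r + rd m j (R m lv S) = k ↔ rd m j (R m lv S) = k - rd m j r := by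
    constructor
    · rintro rfl; ring
    · intro h; rw [h]; ring
  simp only [this]

theorem norm_X_le {j : ℕ} {ν : (u : J) → ZMod (2 ^ (m - lv u)) → ℝ} (hν : ∀ u S, 0 ≤ ν u S)
    {c : ℝ} (hc : 0 < c) (r : ZMod (2 ^ m)) (x : ℤ) (k : ZMod (2 ^ (m - j)))
    (q : (u : J) → ZMod (2 ^ (m - lv u))) :
    ‖X j ν c r x k q‖ ≤ c⁻¹ * Pk j ν r k := by
  unfold X Pk
  rw [norm_mul, norm_inv, Complex.norm_real, Real.norm_of_nonneg hc.le]
  refine mul_le_mul_of_nonneg_left ?_ (by positivity)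
  refine (norm_sum_le _ _).trans (sum_le_sum fun S _ => ?_)
  split_ifs
  · rw [norm_mul, norm_mul, norm_prod, RCLike.norm_conj, norm_e, Complex.norm_real,
      Real.norm_of_nonneg (PS_nonneg hν S)]
    rw [prod_congr rfl fun u _ => norm_pr (m - lv u) (S u) (q u)]
    simp
  · simp

/-- the letter `k` and the phase at `x` -/
theorem conj_ch_kk {j : ℕ} (hj : j ≤ m) (r : ZMod (2 ^ m)) (S : (u : J) → ZMod (2 ^ (m - lv u)))
    (y : ℤ) :
    (starRingEnd ℂ) (ch (m - j) (kk j r S) y) * ch m (R m lv S) y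
      = (starRingEnd ℂ) (ch m r y) * e (sl j r S * y) := by
  unfold kk sl
  rw [ch_add, ch_rd hj r y, ch_rd hj (R m lv S) y]
  have h1 : e ((((lo m j r : ℕ) : ℝ) + (lo m j (R m lv S) : ℕ)) / 2 ^ m * (y : ℝ))
      = e ((lo m j r : ℝ) * y / 2 ^ m) * e ((lo m j (R m lv S) : ℝ) * y / 2 ^ m) := by
    rw [← e_add]; congr 1; ring
  rw [h1]
  simp only [map_mul]
  have h2 : (starRingEnd ℂ) (ch (m - j) (rd m j (R m lv S)) y) * ch (m - j) (rd m j (R m lv S)) y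
      = 1 := by
    rw [mul_comm, Complex.mul_conj, Complex.normSq_eq_norm_sq, norm_ch]; simp
  have h3 : (starRingEnd ℂ) (e ((lo m j r : ℝ) * y / 2 ^ m)) * e ((lo m j r : ℝ) * y / 2 ^ m)
      = 1 := by
    rw [mul_comm, Complex.mul_conj, Complex.normSq_eq_norm_sq, norm_e]; simp
  calc _ = (starRingEnd ℂ) (ch (m - j) (rd m j r) y) * e ((lo m j (R m lv S) : ℝ) * y / 2 ^ m)
        * ((starRingEnd ℂ) (ch (m - j) (rd m j (R m lv S)) y)
          * ch (m - j) (rd m j (R m lv S)) y) := by ring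
    _ = (starRingEnd ℂ) (ch (m - j) (rd m j r) y) * e ((lo m j (R m lv S) : ℝ) * y / 2 ^ m)
        * ((starRingEnd ℂ) (e ((lo m j r : ℝ) * y / 2 ^ m))
          * e ((lo m j r : ℝ) * y / 2 ^ m)) := by rw [h2, h3]
    _ = _ := by ring

/-- summing over the labels, one `k` -/
theorem sum_q {j : ℕ} (hj : j ≤ m) (hlv : ∀ u, lv u ≤ m)
    (ν ρ : (u : J) → ZMod (2 ^ (m - lv u)) → ℝ) (c : ℝ) (r : ZMod (2 ^ m)) (x y : ℤ)
    (k : ZMod (2 ^ (m - j))) :
    ∑ q, X j ν c r x k q * ((starRingEnd ℂ) (ch (m - j) k y) * (PL m lv ρ q y : ℂ))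
      = (c : ℂ)⁻¹ * (∑ S : (u : J) → ZMod (2 ^ (m - lv u)), if kk j r S = k then
          (PS m lv ν S : ℂ) * cS m lv ρ S * e (sl j r S * (y - x)) else 0)
        * (starRingEnd ℂ) (ch m r y) := by
  unfold X
  have h1 : ∀ q : (u : J) → ZMod (2 ^ (m - lv u)),
      (c : ℂ)⁻¹ * (∑ S : (u : J) → ZMod (2 ^ (m - lv u)), if kk j r S = k then
        (PS m lv ν S : ℂ) * (∏ u, pr (m - lv u) (S u) (q u)) * (starRingEnd ℂ) (e (sl j r S * x))
        else 0) * ((starRingEnd ℂ) (ch (m - j) k y) * (PL m lv ρ q y : ℂ))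
      = (c : ℂ)⁻¹ * ∑ S : (u : J) → ZMod (2 ^ (m - lv u)), if kk j r S = k then
        (PS m lv ν S : ℂ) * (starRingEnd ℂ) (e (sl j r S * x)) * (starRingEnd ℂ) (ch (m - j) k y)
          * ((∏ u, pr (m - lv u) (S u) (q u)) * (PL m lv ρ q y : ℂ)) else 0 := by
    intro q
    rw [mul_assoc, sum_mul]
    congr 1
    refine sum_congr rfl fun S _ => ?_
    split_ifs
    · ring
    · ring
  rw [sum_congr rfl fun q _ => h1 q, ← mul_sum, sum_comm, mul_assoc, sum_mul]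
  congr 1
  refine sum_congr rfl fun S _ => ?_
  by_cases hk : kk j r S = k
  · simp only [hk, if_true]
    rw [← mul_sum, sum_label hlv]
    have h2 := conj_ch_kk hj r S y
    rw [hk] at h2
    have h3 : e (sl j r S * (y - x)) = e (sl j r S * y) * (starRingEnd ℂ) (e (sl j r S * x)) := by
      rw [mul_sub, e_sub]
    rw [h3]
    calc _ = (PS m lv ν S : ℂ) * (starRingEnd ℂ) (e (sl j r S * x)) * cS m lv ρ S
          * ((starRingEnd ℂ) (ch (m - j) k y) * ch m (R m lv S) y) := by ring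
      _ = _ := by rw [h2]; ring
  · simp [hk]

/-- `φ_E = c⁻¹ ∑_{S : k(S) ∈ E} P(S) ∏ ρ̂(S)` -/
noncomputable def phi (j : ℕ) (ν ρ : (u : J) → ZMod (2 ^ (m - lv u)) → ℝ) (c : ℝ)
    (r : ZMod (2 ^ m)) (E : Finset (ZMod (2 ^ (m - j)))) : ℂ :=
  (c : ℂ)⁻¹ * ∑ S : (u : J) → ZMod (2 ^ (m - lv u)), if kk j r S ∈ E then
    (PS m lv ν S : ℂ) * cS m lv ρ S else 0

theorem norm_rh_le {k : ℕ} {ρ : ZMod (2 ^ k) → ℝ} (h0 : ∀ t, 0 ≤ ρ t) (h1 : ∑ t, ρ t = 1)
    (S : ZMod (2 ^ k)) : ‖rh k ρ S‖ ≤ 1 := by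
  unfold rh
  refine (norm_sum_le _ _).trans ?_
  rw [← h1]
  refine sum_le_sum fun t _ => ?_
  rw [norm_mul, norm_pr, mul_one, Complex.norm_real, Real.norm_of_nonneg (h0 t)]

theorem norm_cS_le {ρ : (u : J) → ZMod (2 ^ (m - lv u)) → ℝ} (h0 : ∀ u t, 0 ≤ ρ u t)
    (h1 : ∀ u, ∑ t, ρ u t = 1) (S : (u : J) → ZMod (2 ^ (m - lv u))) :
    ‖cS m lv ρ S‖ ≤ 1 := by
  unfold cS
  rw [norm_prod]
  exact prod_le_one (fun u _ => norm_nonneg _) fun u _ => norm_rh_le (h0 u) (h1 u) _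

theorem sl_nonneg (j : ℕ) (r : ZMod (2 ^ m)) (S : (u : J) → ZMod (2 ^ (m - lv u))) :
    0 ≤ sl j r S := by unfold sl; positivity

theorem sl_le (j : ℕ) (r : ZMod (2 ^ m)) (S : (u : J) → ZMod (2 ^ (m - lv u))) :
    sl j r S ≤ 2 * 2 ^ j / 2 ^ m := by
  unfold sl
  have h1 : (lo m j r : ℝ) ≤ 2 ^ j := by exact_mod_cast (lo_lt m j r).le
  have h2 : (lo m j (R m lv S) : ℝ) ≤ 2 ^ j := by exact_mod_cast (lo_lt m j _).le
  gcongr
  linarith

/-- **(G1) with rounding.**  For every set `E` of list elements the explained part of the kernel is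
`φ_E` times the kernel, up to the slow phase between `x` and `y`. -/
theorem kernel {j : ℕ} (hj : j ≤ m) (hlv : ∀ u, lv u ≤ m)
    {ν ρ : (u : J) → ZMod (2 ^ (m - lv u)) → ℝ} (hν : ∀ u S, 0 ≤ ν u S)
    (hρ : ∀ u S, 0 ≤ ρ u S) (hρ1 : ∀ u, ∑ S, ρ u S = 1) {c : ℝ} (hc : 0 < c)
    (r : ZMod (2 ^ m)) (x y : ℤ) (E : Finset (ZMod (2 ^ (m - j)))) :
    ‖(∑ k ∈ E, ∑ q, X j ν c r x k q * ((starRingEnd ℂ) (ch (m - j) k y) * (PL m lv ρ q y : ℂ)))
        - phi j ν ρ c r E * (starRingEnd ℂ) (ch m r y)‖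
      ≤ c⁻¹ * (∑ k ∈ E, Pk j ν r k) * (4 * Real.pi * 2 ^ j / 2 ^ m * |(y : ℝ) - x|) := by
  rw [sum_congr rfl fun k _ => sum_q hj hlv ν ρ c r x y k]
  have h1 : ∑ k ∈ E, (c : ℂ)⁻¹ * (∑ S : (u : J) → ZMod (2 ^ (m - lv u)), if kk j r S = k then
      (PS m lv ν S : ℂ) * cS m lv ρ S * e (sl j r S * (y - x)) else 0)
        * (starRingEnd ℂ) (ch m r y)
      = (c : ℂ)⁻¹ * (∑ S : (u : J) → ZMod (2 ^ (m - lv u)), if kk j r S ∈ E then
      (PS m lv ν S : ℂ) * cS m lv ρ S * e (sl j r S * (y - x)) else 0)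
        * (starRingEnd ℂ) (ch m r y) := by
    rw [← sum_mul, ← mul_sum, sum_comm]
    congr 2
    refine sum_congr rfl fun S _ => ?_
    rw [sum_ite_eq]
  rw [h1]
  unfold phi
  rw [← sub_mul, norm_mul, RCLike.norm_conj, norm_ch, mul_one, ← mul_sub, norm_mul, norm_inv,
    Complex.norm_real, Real.norm_of_nonneg hc.le, mul_assoc]
  refine mul_le_mul_of_nonneg_left ?_ (by positivity)
  rw [← sum_sub_distrib]
  have h2 : ∑ k ∈ E, Pk j ν r k = ∑ S : (u : J) → ZMod (2 ^ (m - lv u)),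
      if kk j r S ∈ E then PS m lv ν S else 0 := by
    unfold Pk
    rw [sum_comm]
    refine sum_congr rfl fun S _ => ?_
    rw [sum_ite_eq]
  rw [h2, sum_mul]
  refine (norm_sum_le _ _).trans (sum_le_sum fun S _ => ?_)
  split_ifs
  · rw [← mul_sub_one, norm_mul, norm_mul, Complex.norm_real,
      Real.norm_of_nonneg (PS_nonneg hν S), mul_assoc]
    refine mul_le_mul_of_nonneg_left ?_ (PS_nonneg hν S)
    have h3 := norm_cS_le hρ hρ1 S
    have h4 := norm_e_sub_one_le (sl j r S * (y - x))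
    have h5 : |sl j r S * ((y : ℝ) - x)| ≤ 2 * 2 ^ j / 2 ^ m * |(y : ℝ) - x| := by
      rw [abs_mul, abs_of_nonneg (sl_nonneg j r S)]
      exact mul_le_mul_of_nonneg_right (sl_le j r S) (abs_nonneg _)
    calc ‖cS m lv ρ S‖ * ‖e (sl j r S * (y - x)) - 1‖
        ≤ 1 * (2 * Real.pi * |sl j r S * ((y : ℝ) - x)|) :=
          mul_le_mul h3 h4 (norm_nonneg _) zero_le_one
      _ ≤ 1 * (2 * Real.pi * (2 * 2 ^ j / 2 ^ m * |(y : ℝ) - x|)) := by
          gcongr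
      _ = _ := by ring
  · simp

/-- the bias seen by one list element -/
theorem bias {j : ℕ} (hj : j ≤ m) (hlv : ∀ u, lv u ≤ m)
    {ν ρ : (u : J) → ZMod (2 ^ (m - lv u)) → ℝ} (hν : ∀ u S, 0 ≤ ν u S)
    (hρ : ∀ u S, 0 ≤ ρ u S) (hρ1 : ∀ u, ∑ S, ρ u S = 1) {c : ℝ} (hc : 0 < c)
    (r : ZMod (2 ^ m)) (x : ℤ) (k : ZMod (2 ^ (m - j))) (s : Finset ℕ) (g : ℕ → ℝ) (Λ : ℝ)
    (hg : ∀ y ∈ s, 0 ≤ g y) (hΛ : ∀ y ∈ s, |((y : ℤ) : ℝ) - x| ≤ Λ) :
    ‖∑ q, X j ν c r x k q * (∑ y ∈ s, (g y : ℂ) *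
        ((starRingEnd ℂ) (ch (m - j) k y) * (PL m lv ρ q y : ℂ)))‖
      ≤ c⁻¹ * Pk j ν r k * (‖∑ y ∈ s, (g y : ℂ) * (starRingEnd ℂ) (ch m r y)‖
        + 4 * Real.pi * 2 ^ j / 2 ^ m * Λ * ∑ y ∈ s, g y) := by
  have h1 : ∑ q, X j ν c r x k q * (∑ y ∈ s, (g y : ℂ) *
        ((starRingEnd ℂ) (ch (m - j) k y) * (PL m lv ρ q y : ℂ)))
      = ∑ y ∈ s, (g y : ℂ) * ((c : ℂ)⁻¹ * (∑ S : (u : J) → ZMod (2 ^ (m - lv u)),
          if kk j r S = k then (PS m lv ν S : ℂ) * cS m lv ρ S * e (sl j r S * (y - x)) else 0)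
        * (starRingEnd ℂ) (ch m r y)) := by
    rw [sum_congr rfl fun q _ => mul_sum s _ (X j ν c r x k q), sum_comm]
    refine sum_congr rfl fun y _ => ?_
    have h2 := sum_q hj hlv ν ρ c r x (y : ℤ) k
    simp only [Int.cast_natCast] at h2
    rw [← h2, mul_sum]
    refine sum_congr rfl fun q _ => ?_
    ring
  have h3 : ∑ y ∈ s, (g y : ℂ) * ((c : ℂ)⁻¹ * (∑ S : (u : J) → ZMod (2 ^ (m - lv u)),
          if kk j r S = k then (PS m lv ν S : ℂ) * cS m lv ρ S * e (sl j r S * (y - x)) else 0)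
        * (starRingEnd ℂ) (ch m r y))
      = (c : ℂ)⁻¹ * ∑ S : (u : J) → ZMod (2 ^ (m - lv u)), if kk j r S = k then
          (PS m lv ν S : ℂ) * cS m lv ρ S * (∑ y ∈ s, (g y : ℂ) * (starRingEnd ℂ) (ch m r y)
            + ∑ y ∈ s, (g y : ℂ) * (e (sl j r S * (y - x)) - 1) * (starRingEnd ℂ) (ch m r y))
          else 0 := by
    have h4 : ∀ y ∈ s, (g y : ℂ) * ((c : ℂ)⁻¹ * (∑ S : (u : J) → ZMod (2 ^ (m - lv u)),
          if kk j r S = k then (PS m lv ν S : ℂ) * cS m lv ρ S * e (sl j r S * (y - x)) else 0)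
        * (starRingEnd ℂ) (ch m r y))
        = (c : ℂ)⁻¹ * ∑ S : (u : J) → ZMod (2 ^ (m - lv u)), if kk j r S = k then
          (PS m lv ν S : ℂ) * cS m lv ρ S * ((g y : ℂ) * e (sl j r S * (y - x))
            * (starRingEnd ℂ) (ch m r y)) else 0 := by
      intro y _
      rw [mul_assoc, mul_left_comm, sum_mul, mul_sum]
      congr 1
      refine sum_congr rfl fun S _ => ?_
      split_ifs
      · ring
      · ring
    rw [sum_congr rfl h4, ← mul_sum, sum_comm]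
    congr 1
    refine sum_congr rfl fun S _ => ?_
    by_cases hk : kk j r S = k
    · simp only [hk, if_true]
      rw [← mul_sum, ← sum_add_distrib]
      congr 1
      refine sum_congr rfl fun y _ => ?_
      ring
    · simp [hk]
  rw [h1, h3, norm_mul, norm_inv, Complex.norm_real, Real.norm_of_nonneg hc.le, mul_assoc]
  refine mul_le_mul_of_nonneg_left ?_ (by positivity)
  unfold Pk
  rw [sum_mul]
  refine (norm_sum_le _ _).trans (sum_le_sum fun S _ => ?_)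
  split_ifs
  · rw [norm_mul, norm_mul, Complex.norm_real, Real.norm_of_nonneg (PS_nonneg hν S), mul_assoc]
    refine mul_le_mul_of_nonneg_left ?_ (PS_nonneg hν S)
    have h5 := norm_cS_le hρ hρ1 S
    have h6 : ‖∑ y ∈ s, (g y : ℂ) * (starRingEnd ℂ) (ch m r y)
            + ∑ y ∈ s, (g y : ℂ) * (e (sl j r S * (y - x)) - 1) * (starRingEnd ℂ) (ch m r y)‖
        ≤ ‖∑ y ∈ s, (g y : ℂ) * (starRingEnd ℂ) (ch m r y)‖
          + 4 * Real.pi * 2 ^ j / 2 ^ m * Λ * ∑ y ∈ s, g y := by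
      refine (norm_add_le _ _).trans (add_le_add le_rfl ?_)
      rw [mul_sum]
      refine (norm_sum_le _ _).trans (sum_le_sum fun y hy => ?_)
      rw [norm_mul, norm_mul, RCLike.norm_conj, norm_ch, mul_one, Complex.norm_real,
        Real.norm_of_nonneg (hg y hy), mul_comm]
      refine mul_le_mul_of_nonneg_right ?_ (hg y hy)
      have h7 := norm_e_sub_one_le (sl j r S * (y - x))
      have h8 : |sl j r S * ((y : ℝ) - x)| ≤ 2 * 2 ^ j / 2 ^ m * Λ := by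
        rw [abs_mul, abs_of_nonneg (sl_nonneg j r S)]
        have h9 := hΛ y hy
        simp only [Int.cast_natCast] at h9
        exact mul_le_mul (sl_le j r S) h9 (abs_nonneg _) (by positivity)
      refine h7.trans ?_
      calc 2 * Real.pi * |sl j r S * ((y : ℝ) - x)| ≤ 2 * Real.pi * (2 * 2 ^ j / 2 ^ m * Λ) := by
            gcongr
        _ = _ := by ring
    exact (mul_le_mul h5 h6 (norm_nonneg _) zero_le_one).trans (by rw [one_mul])
  · simp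

end units

end Vale.Agent.P091.T.H522
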