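import Vale.Agent.P091.T.H522.Round
import Vale.Agent.P091.T.Defs
import Vale.Agent.P091.AD.H356.Prod

/-! P091, heart, row CUT: from the node group `ZMod (2^(m-j))` to `ZMod (2^m)`. -/

set_option autoImplicit false

open Finset Real
open Vale.Agent.P065.Ent
open Vale.Agent.P091.AD.H356

noncomputable section

namespace Vale.Agent.P091.T.H522

/-! ## characters -/

/-- the standard character and `e` -/
theorem std_eq (m : ℕ) (r : ZMod (2 ^ m)) (i : ℤ) :
    ZMod.stdAddChar (r * (i : ZMod (2 ^ m))) = ch m r i := by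
  have h : r * (i : ZMod (2 ^ m)) = (((r.val : ℤ) * i : ℤ) : ZMod (2 ^ m)) := by
    push_cast [ZMod.natCast_val, ZMod.cast_id', id]
    rfl
  rw [h, ZMod.stdAddChar_coe]
  unfold ch Spec.e
  congr 1
  push_cast
  ring

/-- the dual of `ZMod (2^m)` -/
def Phi (m : ℕ) : ZMod (2 ^ m) ≃+ AddChar (ZMod (2 ^ m)) ℂ := AddChar.zmodAddEquiv

theorem Phi_apply (m : ℕ) (r y : ZMod (2 ^ m)) : Phi m r y = ZMod.stdAddChar (r * y) := by
  obtain ⟨i, rfl⟩ := ZMod.intCast_surjective r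
  obtain ⟨k, rfl⟩ := ZMod.intCast_surjective y
  rw [← Int.cast_mul, ZMod.stdAddChar_coe]
  have h1 : Phi m (i : ZMod (2 ^ m)) (k : ZMod (2 ^ m))
      = ((AddChar.zmod (2 ^ m) (i : ZMod (2 ^ m)) (k : ZMod (2 ^ m)) : Circle) : ℂ) := rfl
  rw [h1, AddChar.zmod_intCast, Circle.coe_exp]
  congr 1
  push_cast
  ring

/-! ## the projection `ZMod (2^m) → ZMod (2^(m-j))` -/

/-- the projection -/
def pro (m j : ℕ) (t : ZMod (2 ^ m)) : ZMod (2 ^ (m - j)) :=
  ZMod.castHom (pow_dvd_pow 2 (Nat.sub_le m j)) (ZMod (2 ^ (m - j))) t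

theorem pro_add (m j : ℕ) (s t : ZMod (2 ^ m)) : pro m j (s + t) = pro m j s + pro m j t :=
  map_add _ _ _

theorem pro_sub (m j : ℕ) (s t : ZMod (2 ^ m)) : pro m j (s - t) = pro m j s - pro m j t :=
  map_sub _ _ _

theorem pro_natCast (m j a : ℕ) : pro m j (a : ZMod (2 ^ m)) = (a : ZMod (2 ^ (m - j))) :=
  map_natCast _ _

theorem pro_intCast (m j : ℕ) (a : ℤ) : pro m j (a : ZMod (2 ^ m)) = (a : ZMod (2 ^ (m - j))) :=
  map_intCast _ _

theorem pro_surj (m j : ℕ) : Function.Surjective (pro m j) := fun g => by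
  obtain ⟨i, rfl⟩ := ZMod.intCast_surjective g
  exact ⟨i, pro_intCast m j i⟩

/-- the letters of level `j` factor through the projection -/
theorem std_em {m j : ℕ} (h : j ≤ m) (s : ZMod (2 ^ (m - j))) (t : ZMod (2 ^ m)) :
    ZMod.stdAddChar (em m j s * t) = Phi (m - j) s (pro m j t) := by
  obtain ⟨i, rfl⟩ := ZMod.intCast_surjective t
  rw [std_eq, ch_em h, pro_intCast, Phi_apply, std_eq]

/-- all the fibres have `2^j` elements -/
theorem card_fiber {m j : ℕ} (h : j ≤ m) (g : ZMod (2 ^ (m - j))) :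
    (univ.filter fun t : ZMod (2 ^ m) => pro m j t = g).card = 2 ^ j := by
  have h1 : ∀ g : ZMod (2 ^ (m - j)), (univ.filter fun t : ZMod (2 ^ m) => pro m j t = g).card
      = (univ.filter fun t : ZMod (2 ^ m) => pro m j t = 0).card := by
    intro g
    obtain ⟨t0, ht0⟩ := pro_surj m j g
    refine card_bij (fun t _ => t - t0) (fun t ht => ?_) (fun t _ t' _ e => by simpa using e)
      (fun t ht => ?_)
    · rw [mem_filter] at ht ⊢
      refine ⟨mem_univ _, ?_⟩
      rw [pro_sub, ht.2, ht0, sub_self]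
    · rw [mem_filter] at ht
      refine ⟨t + t0, ?_, by ring⟩
      rw [mem_filter]
      refine ⟨mem_univ _, ?_⟩
      rw [pro_add, ht.2, ht0, zero_add]
  have h2 : ∑ g : ZMod (2 ^ (m - j)), (univ.filter fun t : ZMod (2 ^ m) => pro m j t = g).card
      = 2 ^ m := by
    rw [← card_eq_sum_card_fiberwise (fun t _ => mem_univ (pro m j t)), card_univ, ZMod.card]
  rw [sum_congr rfl fun g _ => h1 g, sum_const, card_univ, ZMod.card, smul_eq_mul] at h2
  rw [h1]
  have h3 : 2 ^ (m - j) * 2 ^ j = 2 ^ m := by rw [mul_comm, two_pow_split h]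
  have h4 : 0 < 2 ^ (m - j) := by positivity
  exact Nat.eq_of_mul_eq_mul_left h4 (h2.trans h3.symm)

theorem sum_pro {m j : ℕ} (h : j ≤ m) (f : ZMod (2 ^ (m - j)) → ℝ) :
    ∑ t : ZMod (2 ^ m), f (pro m j t) = 2 ^ j * ∑ g, f g := by
  rw [← sum_fiberwise_of_maps_to (fun t _ => mem_univ (pro m j t)), mul_sum]
  refine sum_congr rfl fun g _ => ?_
  have : ∀ t ∈ univ.filter (fun t : ZMod (2 ^ m) => pro m j t = g), f (pro m j t) = f g := by
    intro t ht
    rw [(mem_filter.mp ht).2]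
  rw [sum_congr rfl this, sum_const, card_fiber h, nsmul_eq_mul]
  push_cast
  rfl

/-- the lift of a noise -/
def rhoN (m j : ℕ) (ρ : ZMod (2 ^ (m - j)) → ℝ) (t : ZMod (2 ^ m)) : ℝ := ρ (pro m j t) / 2 ^ j

theorem rhoN_MP {m j : ℕ} (h : j ≤ m) (ρ : ZMod (2 ^ (m - j)) → ℝ) :
    MP (rhoN m j ρ) ρ (pro m j) := fun f => by
  have h1 := sum_pro h (fun g => ρ g / 2 ^ j * f g)
  unfold rhoN
  rw [h1, mul_sum]
  refine sum_congr rfl fun g _ => ?_
  field_simp

theorem rhoN_isProb {m j : ℕ} (h : j ≤ m) {ρ : ZMod (2 ^ (m - j)) → ℝ} (hρ : IsProb ρ) :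
    IsProb (rhoN m j ρ) := by
  refine ⟨fun t => div_nonneg (hρ.nonneg _) (by positivity), ?_⟩
  have := rhoN_MP h ρ (fun _ => 1)
  simpa [hρ.sum] using this

/-! ## the information of the lifted noise -/

/-- information of a sum of independent variables -/
theorem I_sum {Γ : Type*} [Fintype Γ] [AddCommGroup Γ] {μ ρ : Γ → ℝ} (hμ : IsProb μ)
    (hρ : IsProb ρ) :
    I (px μ ρ) (fun w => w.1) (fun w => w.1 + w.2) (fun _ => ())
      = H (px μ ρ) (fun w => w.1 + w.2) - H ρ (fun t => t) := by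
  have hp := px_isProb hμ hρ
  have e1 : H (px μ ρ) (fun w => (w.1, ())) = H (px μ ρ) (fun w => w.1) :=
    H_congr (det_fst _ _) fun a b e => by rw [show a.1 = b.1 from e]
  have e2 : H (px μ ρ) (fun w => (w.1 + w.2, ())) = H (px μ ρ) (fun w => w.1 + w.2) :=
    H_congr (det_fst _ _) fun a b e => by rw [show a.1 + a.2 = b.1 + b.2 from e]
  have e3 : H (px μ ρ) (fun w => (w.1, (w.1 + w.2, ()))) = H (px μ ρ) (fun w => (w.1, w.2)) := by
    refine H_congr (fun a b e => ?_) (fun a b e => ?_)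
    · have h1 : a.1 = b.1 := (Prod.mk.inj e).1
      have h2 : a.1 + a.2 = b.1 + b.2 := (Prod.mk.inj (Prod.mk.inj e).2).1
      have h3 : a.2 = b.2 := by
        rw [h1] at h2
        exact add_left_cancel h2
      show (a.1, a.2) = (b.1, b.2)
      rw [h1, h3]
    · have h1 : a.1 = b.1 := (Prod.mk.inj e).1
      have h2 : a.2 = b.2 := (Prod.mk.inj e).2
      show (a.1, (a.1 + a.2, ())) = (b.1, (b.1 + b.2, ()))
      rw [h1, h2]
  have e4 : H (px μ ρ) (fun w => (w.1, w.2)) = H μ (fun y => y) + H ρ (fun t => t) :=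
    H_px hμ hρ (fun y => y) (fun t => t)
  have e5 : H (px μ ρ) (fun w => w.1) = H μ (fun y => y) :=
    MP.ent (MP_fst (μ := μ) hρ) (fun y => y)
  have e6 : H (px μ ρ) (fun _ => ()) = 0 := H_of_const hp ()
  unfold I Hc
  rw [e1, e2, e3, e4, e5, e6]
  ring

/-- the entropy of the lifted noise -/
theorem H_rhoN {m j : ℕ} (h : j ≤ m) {ρ : ZMod (2 ^ (m - j)) → ℝ} (hρ : IsProb ρ) :
    H (rhoN m j ρ) (fun t => t) = H ρ (fun t => t) + log ((2 : ℝ) ^ j) := by
  have h0 : ∀ {Γ : Type} [Fintype Γ] (μ : Γ → ℝ), ∀ x, Pr μ (fun t => t) x = μ x := by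
    intro Γ _ μ x
    classical
    unfold Pr
    rw [sum_ite_eq' univ x]
    simp
  unfold H
  have h1 := rhoN_MP h ρ (fun g => - log (ρ g) + log ((2 : ℝ) ^ j))
  have h2 : ∑ t, rhoN m j ρ t * (- log (Pr (rhoN m j ρ) (fun t => t) t))
      = ∑ t, rhoN m j ρ t * (- log (ρ (pro m j t)) + log ((2 : ℝ) ^ j)) := by
    refine sum_congr rfl fun t _ => ?_
    rw [h0]
    rcases (hρ.nonneg (pro m j t)).eq_or_lt with h3 | h3
    · unfold rhoN
      rw [← h3]; simp
    · congr 1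
      unfold rhoN
      rw [log_div h3.ne' (by positivity)]
      ring
  rw [h2, h1]
  simp only [h0]
  have h5 : ∑ t, ρ t * log ((2 : ℝ) ^ j) = log ((2 : ℝ) ^ j) := by
    rw [← sum_mul, hρ.sum, one_mul]
  have h6 : ∑ t, ρ t * (- log (ρ t) + log ((2 : ℝ) ^ j))
      = ∑ t, ρ t * (- log (ρ t)) + ∑ t, ρ t * log ((2 : ℝ) ^ j) := by
    rw [← sum_add_distrib]
    exact sum_congr rfl fun t _ => by ring
  rw [h6, h5]

/-- the information of the lifted noise is at most the information in the node group -/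
theorem info_lift {m j : ℕ} (h : j ≤ m) {ρ : ZMod (2 ^ (m - j)) → ℝ} (hρ : IsProb ρ)
    {lam : ZMod (2 ^ m) → ℝ} (hl : IsProb lam) {ν : ZMod (2 ^ (m - j)) → ℝ} (hν : IsProb ν)
    (hp : MP lam ν (pro m j)) :
    I (px lam (rhoN m j ρ)) (fun w => w.1) (fun w => w.1 + w.2) (fun _ => ())
      ≤ I (px ν ρ) (fun w => w.1) (fun w => w.1 + w.2) (fun _ => ()) := by
  have hρN := rhoN_isProb h hρ
  rw [I_sum hl hρN, I_sum hν hρ, H_rhoN h hρ]
  have hpx := px_isProb hl hρN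
  have h1 : H (px lam (rhoN m j ρ)) (fun w => w.1 + w.2)
      ≤ H (px lam (rhoN m j ρ)) (fun w => pro m j (w.1 + w.2))
        + Hc (px lam (rhoN m j ρ)) (fun w => w.1 + w.2) (fun w => pro m j (w.1 + w.2)) := by
    unfold Hc
    have : H (px lam (rhoN m j ρ)) (fun w => w.1 + w.2)
        ≤ H (px lam (rhoN m j ρ)) (fun w => (w.1 + w.2, pro m j (w.1 + w.2))) :=
      H_mono hpx (det_fst _ _)
    linarith
  have h2 : Hc (px lam (rhoN m j ρ)) (fun w => w.1 + w.2) (fun w => pro m j (w.1 + w.2))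
      ≤ log ((2 ^ j : ℕ) : ℝ) := by
    refine Hc_le_log hpx _ _ (2 ^ j) (by positivity) fun ω => ?_
    refine ⟨univ.filter fun t : ZMod (2 ^ m) => pro m j t = pro m j (ω.1 + ω.2),
      (card_fiber h _).le, fun ω' e => ?_⟩
    rw [mem_filter]
    exact ⟨mem_univ _, e⟩
  have h3 : H (px lam (rhoN m j ρ)) (fun w => pro m j (w.1 + w.2))
      = H (px ν ρ) (fun w => w.1 + w.2) := by
    have h4 : MP (px lam (rhoN m j ρ)) (px ν ρ) (Prod.map (pro m j) (pro m j)) :=
      hp.prodMap (rhoN_MP h ρ)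
    rw [← h4.ent (fun w => w.1 + w.2)]
    refine congrArg _ ?_
    funext w
    exact pro_add m j _ _
  push_cast at h2
  linarith

end Vale.Agent.P091.T.H522
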